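import Mathlib

/-!
# P207, line N3: families of smooth maps with jointly continuous derivatives

`JC f S`: `f : Z → E → F`, `S ⊆ Z × E` open, every `f z` is smooth on the slice of `S`, and all the
derivatives `(z, u) ↦ D^k (f z) u` are jointly continuous on `S`. `Z` is any topological space.
-/

set_option linter.unusedSectionVars false

open Set Filter Topology
open scoped ContDiff

noncomputable section

namespace Vale.Agent.P207.N3

universe v w

variable {Z : Type v} [TopologicalSpace Z] {Z' : Type w} [TopologicalSpace Z']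
  {E F G H : Type}
  [NormedAddCommGroup E] [NormedSpace ℝ E] [NormedAddCommGroup F] [NormedSpace ℝ F]
  [NormedAddCommGroup G] [NormedSpace ℝ G] [NormedAddCommGroup H] [NormedSpace ℝ H]

/-- jointly continuous derivatives up to order `n` -/
structure JCn (n : ℕ) (f : Z → E → F) (S : Set (Z × E)) : Prop where
  isOpen : IsOpen S
  smooth : ∀ z, ContDiffOn ℝ n (f z) {u | (z, u) ∈ S}
  cont : ∀ k ≤ n, ContinuousOn (fun p : Z × E => iteratedFDeriv ℝ k (f p.1) p.2) S

/-- jointly continuous derivatives of all orders -/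
structure JC (f : Z → E → F) (S : Set (Z × E)) : Prop where
  isOpen : IsOpen S
  smooth : ∀ z, ContDiffOn ℝ ∞ (f z) {u | (z, u) ∈ S}
  cont : ∀ k : ℕ, ContinuousOn (fun p : Z × E => iteratedFDeriv ℝ k (f p.1) p.2) S

theorem isOpen_slice {S : Set (Z × E)} (hS : IsOpen S) (z : Z) : IsOpen {u | (z, u) ∈ S} :=
  hS.preimage (by fun_prop : Continuous fun u : E => (z, u))

variable {n : ℕ} {f f' : Z → E → F} {g : Z → E → G} {S T : Set (Z × E)}

theorem JC.jcn (h : JC f S) (n : ℕ) : JCn n f S :=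
  ⟨h.isOpen, fun z => (h.smooth z).of_le (by exact_mod_cast le_top), fun k _ => h.cont k⟩

theorem JC.of_jcn (h : ∀ n, JCn n f S) : JC f S :=
  ⟨(h 0).isOpen, fun z => contDiffOn_infty.2 fun n => (h n).smooth z,
    fun k => (h k).cont k le_rfl⟩

theorem JC_iff_jcn : JC f S ↔ ∀ n, JCn n f S := ⟨JC.jcn, JC.of_jcn⟩

theorem JCn.of_le {m : ℕ} (h : JCn n f S) (hm : m ≤ n) : JCn m f S :=
  ⟨h.isOpen, fun z => (h.smooth z).of_le (by exact_mod_cast hm), fun k hk => h.cont k (hk.trans hm)⟩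

/-! ### recursion -/

theorem JCn.continuousOn (h : JCn n f S) : ContinuousOn (fun p : Z × E => f p.1 p.2) S := by
  have h0 := h.cont 0 (Nat.zero_le _)
  have : (fun p : Z × E => iteratedFDeriv ℝ 0 (f p.1) p.2)
      = (continuousMultilinearCurryFin0 ℝ E F).symm ∘ fun p : Z × E => f p.1 p.2 := by
    funext p
    rw [iteratedFDeriv_zero_eq_comp]
    rfl
  rw [this, LinearIsometryEquiv.comp_continuousOn_iff] at h0
  exact h0

theorem JC.continuousOn (h : JC f S) : ContinuousOn (fun p : Z × E => f p.1 p.2) S :=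
  (h.jcn 0).continuousOn

theorem JCn_zero : JCn 0 f S ↔ IsOpen S ∧ ContinuousOn (fun p : Z × E => f p.1 p.2) S := by
  refine ⟨fun h => ⟨h.isOpen, h.continuousOn⟩, fun ⟨h1, h2⟩ => ⟨h1, fun z => ?_, fun k hk => ?_⟩⟩
  · rw [Nat.cast_zero, contDiffOn_zero]
    exact h2.comp (f := fun u : E => ((z, u) : Z × E)) (by fun_prop) fun u hu => hu
  · have hk0 : k = 0 := Nat.le_zero.1 hk
    subst hk0
    have : (fun p : Z × E => iteratedFDeriv ℝ 0 (f p.1) p.2)
        = (continuousMultilinearCurryFin0 ℝ E F).symm ∘ fun p : Z × E => f p.1 p.2 := by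
      funext p
      rw [iteratedFDeriv_zero_eq_comp]
      rfl
    rw [this, LinearIsometryEquiv.comp_continuousOn_iff]
    exact h2

theorem cont_succ_iff (k : ℕ) :
    ContinuousOn (fun p : Z × E => iteratedFDeriv ℝ (k + 1) (f p.1) p.2) S
      ↔ ContinuousOn (fun p : Z × E => iteratedFDeriv ℝ k (fderiv ℝ (f p.1)) p.2) S := by
  have : (fun p : Z × E => iteratedFDeriv ℝ (k + 1) (f p.1) p.2)
      = (continuousMultilinearCurryRightEquiv' ℝ k E F).symm ∘
        fun p : Z × E => iteratedFDeriv ℝ k (fderiv ℝ (f p.1)) p.2 := by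
    funext p
    rw [iteratedFDeriv_succ_eq_comp_right]
    rfl
  rw [this, LinearIsometryEquiv.comp_continuousOn_iff]

theorem JCn_succ : JCn (n + 1) f S ↔ (∀ p ∈ S, DifferentiableAt ℝ (f p.1) p.2) ∧
    ContinuousOn (fun p : Z × E => f p.1 p.2) S ∧ JCn n (fun z => fderiv ℝ (f z)) S := by
  constructor
  · intro h
    have hz := fun z => (contDiffOn_succ_iff_fderiv_of_isOpen (𝕜 := ℝ) (n := (n : WithTop ℕ∞))
      (f := f z) (isOpen_slice h.isOpen z)).1 (by exact_mod_cast h.smooth z)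
    refine ⟨fun p hp => ?_, h.continuousOn, h.isOpen, fun z => (hz z).2.2, fun k hk => ?_⟩
    · exact (hz p.1).1.differentiableAt ((isOpen_slice h.isOpen p.1).mem_nhds hp)
    · exact (cont_succ_iff k).1 (h.cont (k + 1) (by omega))
  · rintro ⟨h1, h2, h3⟩
    refine ⟨h3.isOpen, fun z => ?_, fun k hk => ?_⟩
    · have := (contDiffOn_succ_iff_fderiv_of_isOpen (𝕜 := ℝ) (n := (n : WithTop ℕ∞))
        (f := f z) (isOpen_slice h3.isOpen z)).2
        ⟨fun u hu => (h1 (z, u) hu).differentiableWithinAt, by simp, h3.smooth z⟩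
      exact_mod_cast this
    · rcases k with _ | k
      · exact (JCn_zero.2 ⟨h3.isOpen, h2⟩).cont 0 le_rfl
      · exact (cont_succ_iff k).2 (h3.cont k (by omega))

theorem JC_iff_fderiv : JC f S ↔ (∀ p ∈ S, DifferentiableAt ℝ (f p.1) p.2) ∧
    ContinuousOn (fun p : Z × E => f p.1 p.2) S ∧ JC (fun z => fderiv ℝ (f z)) S := by
  constructor
  · intro h
    refine ⟨(JCn_succ.1 (h.jcn 1)).1, h.continuousOn, JC.of_jcn fun n => ?_⟩
    exact (JCn_succ.1 (h.jcn (n + 1))).2.2
  · rintro ⟨h1, h2, h3⟩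
    refine JC.of_jcn fun n => ?_
    rcases n with _ | n
    · exact JCn_zero.2 ⟨h3.isOpen, h2⟩
    · exact JCn_succ.2 ⟨h1, h2, h3.jcn n⟩

theorem JC.differentiableAt (h : JC f S) {p : Z × E} (hp : p ∈ S) :
    DifferentiableAt ℝ (f p.1) p.2 := (JC_iff_fderiv.1 h).1 p hp

theorem JC.fderiv (h : JC f S) : JC (fun z => fderiv ℝ (f z)) S := (JC_iff_fderiv.1 h).2.2

theorem JC.hasFDerivAt (h : JC f S) {p : Z × E} (hp : p ∈ S) :
    HasFDerivAt (f p.1) (_root_.fderiv ℝ (f p.1) p.2) p.2 := (h.differentiableAt hp).hasFDerivAt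

theorem JC.contDiffAt (h : JC f S) {p : Z × E} (hp : p ∈ S) : ContDiffAt ℝ ∞ (f p.1) p.2 :=
  (h.smooth p.1).contDiffAt ((isOpen_slice h.isOpen p.1).mem_nhds hp)

/-! ### congruence, restriction, locality -/

theorem JCn.congr (h : JCn n f S) (hf : ∀ p ∈ S, f' p.1 p.2 = f p.1 p.2) : JCn n f' S := by
  refine ⟨h.isOpen, fun z => (h.smooth z).congr fun u hu => hf (z, u) hu, fun k hk => ?_⟩
  refine (h.cont k hk).congr fun p hp => ?_
  have : f' p.1 =ᶠ[𝓝 p.2] f p.1 := by
    filter_upwards [(isOpen_slice h.isOpen p.1).mem_nhds hp] with u hu using hf (p.1, u) hu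
  exact (this.iteratedFDeriv ℝ k).self_of_nhds

theorem JC.congr (h : JC f S) (hf : ∀ p ∈ S, f' p.1 p.2 = f p.1 p.2) : JC f' S :=
  JC.of_jcn fun n => (h.jcn n).congr hf

theorem JCn.mono (h : JCn n f S) (hT : IsOpen T) (hTS : T ⊆ S) : JCn n f T :=
  ⟨hT, fun z => (h.smooth z).mono fun _ hu => hTS hu, fun k hk => (h.cont k hk).mono hTS⟩

theorem JC.mono (h : JC f S) (hT : IsOpen T) (hTS : T ⊆ S) : JC f T :=
  JC.of_jcn fun n => (h.jcn n).mono hT hTS

theorem JCn.of_hasFDerivAt {f1 : Z → E → E →L[ℝ] F} (hc : ContinuousOn (fun p : Z × E => f p.1 p.2) S)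
    (hd : ∀ p ∈ S, HasFDerivAt (f p.1) (f1 p.1 p.2) p.2) (h1 : JCn n f1 S) : JCn (n + 1) f S :=
  JCn_succ.2 ⟨fun p hp => (hd p hp).differentiableAt, hc, h1.congr fun p hp => (hd p hp).fderiv⟩

theorem JC.of_hasFDerivAt {f1 : Z → E → E →L[ℝ] F} (hc : ContinuousOn (fun p : Z × E => f p.1 p.2) S)
    (hd : ∀ p ∈ S, HasFDerivAt (f p.1) (f1 p.1 p.2) p.2) (h1 : JC f1 S) : JC f S :=
  JC_iff_fderiv.2 ⟨fun p hp => (hd p hp).differentiableAt, hc, h1.congr fun p hp => (hd p hp).fderiv⟩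

theorem JCn.of_local (hS : IsOpen S) (h : ∀ p ∈ S, ∃ T, p ∈ T ∧ JCn n f T) : JCn n f S := by
  refine ⟨hS, fun z u hu => ?_, fun k hk p hp => ?_⟩
  · obtain ⟨T, hT, h1⟩ := h (z, u) hu
    have h2 := (h1.smooth z).contDiffAt ((isOpen_slice h1.isOpen z).mem_nhds hT)
    exact h2.contDiffWithinAt
  · obtain ⟨T, hT, h1⟩ := h p hp
    exact ((h1.cont k hk).continuousAt (h1.isOpen.mem_nhds hT)).continuousWithinAt

theorem JC.of_local (hS : IsOpen S) (h : ∀ p ∈ S, ∃ T, p ∈ T ∧ JC f T) : JC f S :=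
  JC.of_jcn fun n => JCn.of_local hS fun p hp => by
    obtain ⟨T, hT, h1⟩ := h p hp
    exact ⟨T, hT, h1.jcn n⟩

theorem JC.iUnion {ι : Sort*} {T : ι → Set (Z × E)} (h : ∀ i, JC f (T i)) : JC f (⋃ i, T i) :=
  JC.of_local (isOpen_iUnion fun i => (h i).isOpen) fun p hp => by
    obtain ⟨i, hi⟩ := mem_iUnion.1 hp
    exact ⟨T i, hi, h i⟩

/-! ### basic functions -/

/-- functions of the parameter only -/
theorem JCn.param {c : Z → F} (hS : IsOpen S) (hc : ContinuousOn (fun p : Z × E => c p.1) S) :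
    JCn n (fun z (_ : E) => c z) S := by
  induction n generalizing F with
  | zero => exact JCn_zero.2 ⟨hS, hc⟩
  | succ n ih =>
    refine JCn.of_hasFDerivAt (f1 := fun _ _ => 0) hc (fun p _ => hasFDerivAt_const _ _) ?_
    exact ih continuousOn_const

theorem JC.param {c : Z → F} (hS : IsOpen S) (hc : ContinuousOn (fun p : Z × E => c p.1) S) :
    JC (fun z (_ : E) => c z) S := JC.of_jcn fun _ => JCn.param hS hc

theorem JC.param' {c : Z → F} (hS : IsOpen S) (hc : Continuous c) :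
    JC (fun z (_ : E) => c z) S := JC.param hS (hc.comp continuous_fst).continuousOn

theorem JC.const (hS : IsOpen S) (c : F) : JC (fun (_ : Z) (_ : E) => c) S :=
  JC.param hS continuousOn_const

/-- smooth functions of the variable only -/
theorem JC.of_contDiffOn {φ : E → F} {U : Set E} (hU : IsOpen U) (hφ : ContDiffOn ℝ ∞ φ U)
    (hS : IsOpen S) (hSU : ∀ p ∈ S, p.2 ∈ U) : JC (fun (_ : Z) => φ) S := by
  refine ⟨hS, fun z => hφ.mono fun u hu => hSU (z, u) hu, fun k => ?_⟩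
  have h1 : ContinuousOn (iteratedFDeriv ℝ k φ) U := by
    have h2 := hφ.continuousOn_iteratedFDerivWithin (m := k) (by exact_mod_cast le_top)
      hU.uniqueDiffOn
    refine h2.congr fun x hx => ?_
    exact (iteratedFDerivWithin_of_isOpen k hU hx).symm
  exact h1.comp continuousOn_snd fun p hp => hSU p hp

theorem JC.of_contDiff {φ : E → F} (hφ : ContDiff ℝ ∞ φ) (hS : IsOpen S) :
    JC (fun (_ : Z) => φ) S :=
  JC.of_contDiffOn isOpen_univ hφ.contDiffOn hS fun _ _ => mem_univ _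

theorem JC.id (hS : IsOpen S) : JC (fun (_ : Z) (u : E) => u) S :=
  JC.of_contDiff contDiff_id hS

/-- a fixed continuous linear map applied to the values -/
theorem JCn.clm (L : F →L[ℝ] G) (h : JCn n f S) : JCn n (fun z u => L (f z u)) S := by
  induction n generalizing F G with
  | zero => exact JCn_zero.2 ⟨h.isOpen, L.continuous.comp_continuousOn h.continuousOn⟩
  | succ n ih =>
    obtain ⟨h1, h2, h3⟩ := JCn_succ.1 h
    refine JCn.of_hasFDerivAt (f1 := fun z u => L.comp (fderiv ℝ (f z) u))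
      (L.continuous.comp_continuousOn h2)
      (fun p hp => L.hasFDerivAt.comp p.2 (h1 p hp).hasFDerivAt) ?_
    exact ih (ContinuousLinearMap.compL ℝ E F G L) h3

theorem JC.clm (L : F →L[ℝ] G) (h : JC f S) : JC (fun z u => L (f z u)) S :=
  JC.of_jcn fun n => (h.jcn n).clm L

theorem JCn.add (h : JCn n f S) (h' : JCn n f' S) : JCn n (fun z u => f z u + f' z u) S := by
  induction n generalizing F with
  | zero => exact JCn_zero.2 ⟨h.isOpen, h.continuousOn.add h'.continuousOn⟩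
  | succ n ih =>
    obtain ⟨h1, h2, h3⟩ := JCn_succ.1 h
    obtain ⟨h1', h2', h3'⟩ := JCn_succ.1 h'
    exact JCn.of_hasFDerivAt (h2.add h2')
      (fun p hp => (h1 p hp).hasFDerivAt.add (h1' p hp).hasFDerivAt) (ih h3 h3')

theorem JC.add (h : JC f S) (h' : JC f' S) : JC (fun z u => f z u + f' z u) S :=
  JC.of_jcn fun n => (h.jcn n).add (h'.jcn n)

/-- **bilinear maps** -/
theorem JCn.bilin (B : F →L[ℝ] G →L[ℝ] H) (hf : JCn n f S) (hg : JCn n g S) :
    JCn n (fun z u => B (f z u) (g z u)) S := by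
  have hcont : ∀ {F G H : Type} [NormedAddCommGroup F] [NormedSpace ℝ F] [NormedAddCommGroup G]
      [NormedSpace ℝ G] [NormedAddCommGroup H] [NormedSpace ℝ H] (B : F →L[ℝ] G →L[ℝ] H)
      {f : Z → E → F} {g : Z → E → G}, ContinuousOn (fun p : Z × E => f p.1 p.2) S →
      ContinuousOn (fun p : Z × E => g p.1 p.2) S →
      ContinuousOn (fun p : Z × E => B (f p.1 p.2) (g p.1 p.2)) S := by
    intro F G H _ _ _ _ _ _ B f g h1 h2
    exact (B.continuous.comp_continuousOn h1).clm_apply h2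
  induction n generalizing F G H with
  | zero => exact JCn_zero.2 ⟨hf.isOpen, hcont B hf.continuousOn hg.continuousOn⟩
  | succ n ih =>
    obtain ⟨h1, h2, h3⟩ := JCn_succ.1 hf
    obtain ⟨h1', h2', h3'⟩ := JCn_succ.1 hg
    refine JCn.of_hasFDerivAt (f1 := fun z u => B.precompR E (f z u) (fderiv ℝ (g z) u)
      + B.precompL E (fderiv ℝ (f z) u) (g z u)) (hcont B h2 h2') (fun p hp =>
      B.hasFDerivAt_of_bilinear (h1 p hp).hasFDerivAt (h1' p hp).hasFDerivAt) ?_
    exact (ih (B.precompR E) (hf.of_le (Nat.le_succ n)) h3').add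
      (ih (B.precompL E) h3 (hg.of_le (Nat.le_succ n)))

theorem JC.bilin (B : F →L[ℝ] G →L[ℝ] H) (hf : JC f S) (hg : JC g S) :
    JC (fun z u => B (f z u) (g z u)) S :=
  JC.of_jcn fun n => (hf.jcn n).bilin B (hg.jcn n)

theorem JC.neg (h : JC f S) : JC (fun z u => -f z u) S :=
  (h.clm (-ContinuousLinearMap.id ℝ F)).congr fun _ _ => by simp

theorem JC.sub (h : JC f S) (h' : JC f' S) : JC (fun z u => f z u - f' z u) S :=
  (h.add h'.neg).congr fun _ _ => by rw [sub_eq_add_neg]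

theorem JC.const_smul (c : ℝ) (h : JC f S) : JC (fun z u => c • f z u) S :=
  (h.clm (c • ContinuousLinearMap.id ℝ F)).congr fun _ _ => by simp

theorem JC.sum {ι : Type*} {f : ι → Z → E → F} (s : Finset ι) (hS : IsOpen S)
    (h : ∀ i ∈ s, JC (f i) S) : JC (fun z u => ∑ i ∈ s, f i z u) S := by
  classical
  induction s using Finset.induction_on with
  | empty => simpa using JC.const hS (0 : F)
  | insert i s hi ih =>
    simp only [Finset.sum_insert hi]
    exact (h i (Finset.mem_insert_self _ _)).add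
      (ih fun j hj => h j (Finset.mem_insert_of_mem hj))

theorem JC.clm_apply {A : Z → E → F →L[ℝ] G} (hA : JC A S) (hf : JC f S) :
    JC (fun z u => A z u (f z u)) S :=
  (hA.bilin (ContinuousLinearMap.id ℝ (F →L[ℝ] G)) hf)

theorem JC.clm_comp {A : Z → E → G →L[ℝ] H} {B : Z → E → F →L[ℝ] G} (hA : JC A S)
    (hB : JC B S) : JC (fun z u => (A z u).comp (B z u)) S :=
  (hA.bilin (ContinuousLinearMap.compL ℝ F G H) hB)

theorem JCn.prodMk (hf : JCn n f S) (hg : JCn n g S) : JCn n (fun z u => (f z u, g z u)) S := by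
  have h1 := hf.clm (ContinuousLinearMap.inl ℝ F G)
  have h2 := hg.clm (ContinuousLinearMap.inr ℝ F G)
  exact (h1.add h2).congr fun p _ => by simp

theorem JC.prodMk (hf : JC f S) (hg : JC g S) : JC (fun z u => (f z u, g z u)) S :=
  JC.of_jcn fun n => (hf.jcn n).prodMk (hg.jcn n)

theorem JC.fst {f : Z → E → F × G} (h : JC f S) : JC (fun z u => (f z u).1) S :=
  h.clm (ContinuousLinearMap.fst ℝ F G)

theorem JC.snd {f : Z → E → F × G} (h : JC f S) : JC (fun z u => (f z u).2) S :=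
  h.clm (ContinuousLinearMap.snd ℝ F G)

/-! ### composition -/

/-- the domain of a composition -/
def cdom (g : Z → E → F) (S : Set (Z × E)) (T : Set (Z × F)) : Set (Z × E) :=
  {p | p ∈ S ∧ (p.1, g p.1 p.2) ∈ T}

theorem isOpen_cdom {g : Z → E → F} {S : Set (Z × E)} {T : Set (Z × F)} (hS : IsOpen S)
    (hT : IsOpen T) (hg : ContinuousOn (fun p : Z × E => g p.1 p.2) S) :
    IsOpen (cdom g S T) := by
  have h1 : ContinuousOn (fun p : Z × E => ((p.1, g p.1 p.2) : Z × F)) S :=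
    continuousOn_fst.prodMk hg
  exact h1.isOpen_inter_preimage hS hT

theorem JCn.comp {f : Z → F → G} {g : Z → E → F} {S : Set (Z × E)} {T : Set (Z × F)}
    (hf : JCn n f T) (hg : JCn n g S) : JCn n (fun z u => f z (g z u)) (cdom g S T) := by
  induction n generalizing G with
  | zero =>
    refine JCn_zero.2 ⟨isOpen_cdom hg.isOpen hf.isOpen hg.continuousOn, ?_⟩
    exact hf.continuousOn.comp (f := fun p : Z × E => ((p.1, g p.1 p.2) : Z × F))
      ((continuousOn_fst.prodMk hg.continuousOn).mono fun p hp => hp.1) fun p hp => hp.2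
  | succ n ih =>
    have ho := isOpen_cdom hg.isOpen hf.isOpen hg.continuousOn
    obtain ⟨h1, h2, h3⟩ := JCn_succ.1 hf
    obtain ⟨h1', h2', h3'⟩ := JCn_succ.1 hg
    refine JCn.of_hasFDerivAt (f1 := fun z u =>
      (fderiv ℝ (f z) (g z u)).comp (fderiv ℝ (g z) u)) ?_ (fun p hp => ?_) ?_
    · exact h2.comp (f := fun p : Z × E => ((p.1, g p.1 p.2) : Z × F))
        ((continuousOn_fst.prodMk h2').mono fun p hp => hp.1) fun p hp => hp.2
    · exact (h1 (p.1, g p.1 p.2) hp.2).hasFDerivAt.comp p.2 (h1' p hp.1).hasFDerivAt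
    · exact (ih h3 (hg.of_le (Nat.le_succ n))).bilin (ContinuousLinearMap.compL ℝ E F G)
        (h3'.mono ho fun p hp => hp.1)

/-- **composition** -/
theorem JC.comp {f : Z → F → G} {g : Z → E → F} {S : Set (Z × E)} {T : Set (Z × F)}
    (hf : JC f T) (hg : JC g S) : JC (fun z u => f z (g z u)) (cdom g S T) :=
  JC.of_jcn fun n => (hf.jcn n).comp (hg.jcn n)

/-- composition, when the inner map sends `S` to `T` -/
theorem JC.comp' {f : Z → F → G} {g : Z → E → F} {S : Set (Z × E)} {T : Set (Z × F)}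
    (hf : JC f T) (hg : JC g S) (h : ∀ p ∈ S, (p.1, g p.1 p.2) ∈ T) :
    JC (fun z u => f z (g z u)) S :=
  (hf.comp hg).mono hg.isOpen fun p hp => ⟨hp, h p hp⟩

/-- a smooth function of the values -/
theorem JC.comp_contDiffOn {φ : F → G} {U : Set F} (hU : IsOpen U) (hφ : ContDiffOn ℝ ∞ φ U)
    (hf : JC f S) (h : ∀ p ∈ S, f p.1 p.2 ∈ U) : JC (fun z u => φ (f z u)) S :=
  (JC.of_contDiffOn (Z := Z) (S := univ ×ˢ U) hU hφ (isOpen_univ.prod hU) fun _ hp => hp.2).comp'
    hf fun p hp => ⟨mem_univ _, h p hp⟩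

theorem JC.comp_contDiff {φ : F → G} (hφ : ContDiff ℝ ∞ φ) (hf : JC f S) :
    JC (fun z u => φ (f z u)) S :=
  hf.comp_contDiffOn isOpen_univ hφ.contDiffOn fun _ _ => mem_univ _

theorem JC.smul {c : Z → E → ℝ} (hc : JC c S) (hf : JC f S) :
    JC (fun z u => c z u • f z u) S :=
  hc.bilin (ContinuousLinearMap.lsmul ℝ ℝ : ℝ →L[ℝ] F →L[ℝ] F) hf

theorem JC.mul {c d : Z → E → ℝ} (hc : JC c S) (hd : JC d S) :
    JC (fun z u => c z u * d z u) S := hc.smul hd

theorem JC.pow {c : Z → E → ℝ} (hc : JC c S) : ∀ m : ℕ, JC (fun z u => c z u ^ m) S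
  | 0 => by simpa using JC.const hc.isOpen (1 : ℝ)
  | m + 1 => by simpa only [pow_succ] using (JC.pow hc m).mul hc

theorem JC.div {c d : Z → E → ℝ} (hc : JC c S) (hd : JC d S) (h : ∀ p ∈ S, d p.1 p.2 ≠ 0) :
    JC (fun z u => c z u / d z u) S := by
  have h1 : JC (fun z u => (d z u)⁻¹) S :=
    hd.comp_contDiffOn (φ := fun x : ℝ => x⁻¹) (U := {x | x ≠ 0}) isOpen_ne
      (fun x hx => (contDiffAt_inv ℝ hx).contDiffWithinAt) h
  simpa only [div_eq_mul_inv] using hc.mul h1

theorem JC.inner {F : Type} [NormedAddCommGroup F] [InnerProductSpace ℝ F] {f g : Z → E → F}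
    (hf : JC f S) (hg : JC g S) : JC (fun z u => inner ℝ (f z u) (g z u)) S :=
  hf.bilin (innerSL ℝ) hg

theorem JC.pi {ι : Type} [Fintype ι] {f : Z → E → ι → F} (hS : IsOpen S)
    (h : ∀ i, JC (fun z u => f z u i) S) : JC f S := by
  classical
  have h1 := JC.sum Finset.univ hS fun i _ =>
    (h i).clm (ContinuousLinearMap.pi fun j : ι =>
      if j = i then ContinuousLinearMap.id ℝ F else 0)
  refine h1.congr fun p _ => ?_
  funext j
  rw [Finset.sum_apply, Finset.sum_eq_single j]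
  · simp
  · intro i _ hij
    simp [hij.symm]
  · intro hj
    exact absurd (Finset.mem_univ j) hj

theorem JC.apply {ι : Type} [Fintype ι] {f : Z → E → ι → F} (h : JC f S) (i : ι) :
    JC (fun z u => f z u i) S :=
  h.clm (ContinuousLinearMap.proj (R := ℝ) (φ := fun _ : ι => F) i)

theorem JC.euclidean {ι : Type} [Fintype ι] {f : Z → E → EuclideanSpace ℝ ι} (hS : IsOpen S)
    (h : ∀ i, JC (fun z u => f z u i) S) : JC f S := by
  have h1 : JC (fun z u => (WithLp.ofLp (f z u) : ι → ℝ)) S := JC.pi hS h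
  exact (h1.clm ((EuclideanSpace.equiv ι ℝ).symm : (ι → ℝ) →L[ℝ] EuclideanSpace ℝ ι)).congr
    fun _ _ => rfl

theorem JC.euclidean_apply {ι : Type} [Fintype ι] {f : Z → E → EuclideanSpace ℝ ι}
    (h : JC f S) (i : ι) : JC (fun z u => f z u i) S :=
  (h.clm (EuclideanSpace.proj i : EuclideanSpace ℝ ι →L[ℝ] ℝ))

theorem JC.sqrt {c : Z → E → ℝ} (hc : JC c S) (h : ∀ p ∈ S, 0 < c p.1 p.2) :
    JC (fun z u => Real.sqrt (c z u)) S :=
  hc.comp_contDiffOn (U := {x | x ≠ 0}) isOpen_ne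
    (fun _ hx => (Real.contDiffAt_sqrt hx).contDiffWithinAt) fun p hp => (h p hp).ne'

theorem JC.log {c : Z → E → ℝ} (hc : JC c S) (h : ∀ p ∈ S, c p.1 p.2 ≠ 0) :
    JC (fun z u => Real.log (c z u)) S :=
  hc.comp_contDiffOn (U := {x | x ≠ 0}) isOpen_ne
    (fun _ hx => (Real.contDiffAt_log.2 hx).contDiffWithinAt) h

theorem JC.exp {c : Z → E → ℝ} (hc : JC c S) : JC (fun z u => Real.exp (c z u)) S :=
  hc.comp_contDiff Real.contDiff_exp

/-- a jointly smooth function is a family with jointly continuous derivatives -/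
theorem JCn.of_uncurry {Y : Type} [NormedAddCommGroup Y] [NormedSpace ℝ Y] {f : Y → E → F}
    {S : Set (Y × E)} (hS : IsOpen S) (h : ContDiffOn ℝ n (fun p : Y × E => f p.1 p.2) S) :
    JCn n f S := by
  induction n generalizing F with
  | zero => exact JCn_zero.2 ⟨hS, h.continuousOn⟩
  | succ n ih =>
    have h0 := (contDiffOn_succ_iff_fderiv_of_isOpen (𝕜 := ℝ) (n := (n : WithTop ℕ∞))
      (f := fun p : Y × E => f p.1 p.2) hS).1 (by exact_mod_cast h)
    refine JCn.of_hasFDerivAt (f1 := fun y u =>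
      (fderiv ℝ (fun p : Y × E => f p.1 p.2) (y, u)).comp (ContinuousLinearMap.inr ℝ Y E))
      h.continuousOn (fun p hp => ?_) ?_
    · have h1 : HasFDerivAt (fun p : Y × E => f p.1 p.2)
          (fderiv ℝ (fun p : Y × E => f p.1 p.2) (p.1, p.2)) (p.1, p.2) :=
        (h0.1.differentiableAt (hS.mem_nhds hp)).hasFDerivAt
      have h2 : HasFDerivAt (fun u : E => ((p.1, u) : Y × E)) (ContinuousLinearMap.inr ℝ Y E) p.2 :=
        hasFDerivAt_prodMk_right p.1 p.2
      exact h1.comp p.2 h2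
    · exact ih (h0.2.2.clm_comp contDiffOn_const)

theorem JC.of_uncurry {Y : Type} [NormedAddCommGroup Y] [NormedSpace ℝ Y] {f : Y → E → F}
    {S : Set (Y × E)} (hS : IsOpen S) (h : ContDiffOn ℝ ∞ (fun p : Y × E => f p.1 p.2) S) :
    JC f S :=
  JC.of_jcn fun n => JCn.of_uncurry hS (h.of_le (by exact_mod_cast le_top))

/-- **change of the parameter** -/
theorem JCn.pullback {c : Z' → Z} (hc : Continuous c) (h : JCn n f S) :
    JCn n (fun z u => f (c z) u) {p : Z' × E | (c p.1, p.2) ∈ S} := by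
  have h0 : Continuous fun p : Z' × E => ((c p.1, p.2) : Z × E) := by fun_prop
  exact ⟨h.isOpen.preimage h0, fun z => h.smooth (c z), fun k hk =>
    (h.cont k hk).comp h0.continuousOn fun p hp => hp⟩

theorem JC.pullback {c : Z' → Z} (hc : Continuous c) (h : JC f S) :
    JC (fun z u => f (c z) u) {p : Z' × E | (c p.1, p.2) ∈ S} :=
  JC.of_jcn fun n => (h.jcn n).pullback hc

/-- splitting of the variable: a part of the variable becomes a parameter -/
theorem JC.split {f : Z → F × G → H} {S : Set (Z × (F × G))} (h : JC f S) :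
    JC (fun (z : Z × F) (w : G) => f z.1 (z.2, w)) {p : (Z × F) × G | (p.1.1, (p.1.2, p.2)) ∈ S} := by
  have h1 : JC (fun (z : Z × F) => f z.1) {p : (Z × F) × (F × G) | (p.1.1, p.2) ∈ S} :=
    h.pullback continuous_fst
  have h2 : JC (fun (z : Z × F) (w : G) => ((z.2, w) : F × G)) univ :=
    (JC.param isOpen_univ (by fun_prop)).prodMk (JC.id isOpen_univ)
  have h3 := h1.comp h2
  refine h3.mono (h.isOpen.preimage (by fun_prop)) fun p hp => ⟨mem_univ _, hp⟩

/-! ### inverse of operators -/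

theorem JC.inverse [CompleteSpace F] {A : Z → E → F →L[ℝ] F} (hA : JC A S)
    (h : ∀ p ∈ S, (A p.1 p.2).IsInvertible) : JC (fun z u => (A z u).inverse) S := by
  have hU : IsOpen {A : F →L[ℝ] F | A.IsInvertible} := by
    have := ContinuousLinearEquiv.isOpen (𝕜 := ℝ) (E := F) (F := F)
    refine this
  refine hA.comp_contDiffOn (φ := ContinuousLinearMap.inverse) hU (fun A hA' => ?_) h
  obtain ⟨e, rfl⟩ := hA'
  exact (contDiffAt_map_inverse e).contDiffWithinAt

/-! ### bounds and uniformity on compact sets -/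

theorem JC.bound (h : JC f S) {K : Set (Z × E)} (hK : IsCompact K) (hKS : K ⊆ S) (k : ℕ) :
    ∃ C, ∀ p ∈ K, ‖iteratedFDeriv ℝ k (f p.1) p.2‖ ≤ C :=
  hK.exists_bound_of_continuousOn ((h.cont k).mono hKS)

/-- convergence of the derivatives, uniformly on compact sets of the variable -/
theorem JC.eventually (h : JC f S) {z₀ : Z} {C : Set E} (hC : IsCompact C)
    (hCS : ∀ u ∈ C, (z₀, u) ∈ S) (k : ℕ) {ε : ℝ} (hε : 0 < ε) :
    ∀ᶠ z in 𝓝 z₀, ∀ u ∈ C, (z, u) ∈ S ∧
      ‖iteratedFDeriv ℝ k (f z) u - iteratedFDeriv ℝ k (f z₀) u‖ < ε := by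
  have key : ∀ u ∈ C, ∀ᶠ p : E × Z in 𝓝 (u, z₀), (p.2, p.1) ∈ S ∧
      ‖iteratedFDeriv ℝ k (f p.2) p.1 - iteratedFDeriv ℝ k (f z₀) p.1‖ < ε := by
    intro u hu
    have hswap : Tendsto (fun p : E × Z => ((p.2, p.1) : Z × E)) (𝓝 (u, z₀)) (𝓝 (z₀, u)) :=
      (continuous_snd.prodMk continuous_fst).tendsto _
    have h1 : ContinuousAt (fun p : Z × E => iteratedFDeriv ℝ k (f p.1) p.2) (z₀, u) :=
      (h.cont k).continuousAt (h.isOpen.mem_nhds (hCS u hu))
    have h2 : Tendsto (fun p : E × Z => iteratedFDeriv ℝ k (f p.2) p.1) (𝓝 (u, z₀))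
        (𝓝 (iteratedFDeriv ℝ k (f z₀) u)) := h1.tendsto.comp hswap
    have hproj : Tendsto (fun p : E × Z => ((z₀, p.1) : Z × E)) (𝓝 (u, z₀)) (𝓝 (z₀, u)) :=
      (continuous_const.prodMk continuous_fst).tendsto _
    have h3 : Tendsto (fun p : E × Z => iteratedFDeriv ℝ k (f z₀) p.1) (𝓝 (u, z₀))
        (𝓝 (iteratedFDeriv ℝ k (f z₀) u)) := h1.tendsto.comp hproj
    have h4 := (h2.sub h3).norm
    rw [sub_self, norm_zero] at h4
    exact (hswap.eventually (h.isOpen.mem_nhds (hCS u hu))).and (h4.eventually (gt_mem_nhds hε))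
  have := hC.eventually_forall_of_forall_eventually (x₀ := z₀)
    (P := fun z u => (z, u) ∈ S ∧
      ‖iteratedFDeriv ℝ k (f z) u - iteratedFDeriv ℝ k (f z₀) u‖ < ε) fun u hu => by
    have := key u hu
    exact (continuous_swap.tendsto (z₀, u)).eventually this
  exact this

end Vale.Agent.P207.N3
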