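import Vale.Agent.P207.N3.H862.JC

/-!
# P207, line N3: interpolation of derivatives; uniform bounds; parametric integrals
-/

set_option linter.unusedSectionVars false

open Set Filter Topology Metric MeasureTheory
open scoped ContDiff

noncomputable section

namespace Vale.Agent.P207.N3

universe v w

section interp

variable {E F : Type*} [NormedAddCommGroup E] [NormedSpace ℝ E] [NormedAddCommGroup F]
  [NormedSpace ℝ F]

theorem iter_sub {f g : E → F} {k : ℕ} {x : E} (hf : ContDiffAt ℝ k f x)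
    (hg : ContDiffAt ℝ k g x) : iteratedFDeriv ℝ k (fun x => f x - g x) x
      = iteratedFDeriv ℝ k f x - iteratedFDeriv ℝ k g x := by
  have e : (fun x => f x - g x) = f + (-g) := by
    funext x; simp [sub_eq_add_neg]
  have h1 : ContDiffAt ℝ k (-g) x := hg.neg
  rw [e, iteratedFDeriv_add_apply hf h1, iteratedFDeriv_neg_apply, sub_eq_add_neg]

/-- one step of interpolation: a bound of `h` and a Lipschitz bound of its derivative give a bound
of the derivative at the centre of a ball -/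
theorem interp_one {h : E → F} {h1 : E → E →L[ℝ] F} {u : E} {s A M : ℝ} (hs : 0 < s)
    (hM0 : 0 ≤ M) (hA : ∀ v ∈ closedBall u s, ‖h v‖ ≤ A)
    (hd : ∀ v ∈ closedBall u s, HasFDerivAt h (h1 v) v)
    (hM : ∀ v ∈ closedBall u s, ‖h1 v - h1 u‖ ≤ M * ‖v - u‖) :
    ‖h1 u‖ ≤ 2 * A / s + M * s := by
  have hu : u ∈ closedBall u s := mem_closedBall_self hs.le
  have hA0 : 0 ≤ A := (norm_nonneg _).trans (hA u hu)
  refine ContinuousLinearMap.opNorm_le_bound _ (by positivity) fun e => ?_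
  rcases eq_or_ne e 0 with rfl | he
  · simp
  have he0 : 0 < ‖e‖ := norm_pos_iff.2 he
  set v := u + (s / ‖e‖) • e with hv
  have hvu : ‖v - u‖ = s := by
    rw [hv, add_sub_cancel_left, norm_smul, Real.norm_eq_abs, abs_of_nonneg (by positivity)]
    field_simp
  have hvm : v ∈ closedBall u s := by rw [mem_closedBall, dist_eq_norm, hvu]
  have key := (convex_closedBall u s).norm_image_sub_le_of_norm_hasFDerivWithin_le'
    (f := h) (f' := h1) (φ := h1 u) (C := M * s)
    (fun x hx => (hd x hx).hasFDerivWithinAt) (fun x hx => by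
      have h1' := hM x hx
      have h2 : ‖x - u‖ ≤ s := by rwa [mem_closedBall, dist_eq_norm] at hx
      exact h1'.trans (mul_le_mul_of_nonneg_left h2 hM0)) hu hvm
  rw [hvu] at key
  have h3 : h1 u (v - u) = (s / ‖e‖) • h1 u e := by
    rw [hv, add_sub_cancel_left, map_smul]
  have h4 : ‖h1 u (v - u)‖ ≤ 2 * A + M * s * s := by
    have h5 : ‖h1 u (v - u)‖ ≤ ‖h v - h u‖ + ‖h v - h u - h1 u (v - u)‖ := by
      have := norm_sub_le (h v - h u) (h v - h u - h1 u (v - u))
      simpa using this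
    have h6 : ‖h v - h u‖ ≤ A + A := (norm_sub_le _ _).trans (add_le_add (hA v hvm) (hA u hu))
    linarith
  rw [h3, norm_smul, Real.norm_eq_abs, abs_of_nonneg (by positivity)] at h4
  have h7 : ‖h1 u e‖ = (s / ‖e‖ * ‖h1 u e‖) * (‖e‖ / s) := by field_simp
  rw [h7]
  calc (s / ‖e‖ * ‖h1 u e‖) * (‖e‖ / s) ≤ (2 * A + M * s * s) * (‖e‖ / s) :=
        mul_le_mul_of_nonneg_right h4 (by positivity)
    _ = (2 * A / s + M * s) * ‖e‖ := by field_simp

theorem hasFDerivAt_iter' {h : E → F} {V : Set E} (hV : IsOpen V) (hh : ContDiffOn ℝ ∞ h V)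
    (k : ℕ) {v : E} (hv : v ∈ V) :
    HasFDerivAt (iteratedFDeriv ℝ k h) (fderiv ℝ (iteratedFDeriv ℝ k h) v) v := by
  have h1 : ContDiffAt ℝ ∞ h v := hh.contDiffAt (hV.mem_nhds hv)
  have h2 : ContDiffAt ℝ (k + 1 : ℕ) h v := h1.of_le (by exact_mod_cast le_top)
  have h3 : DifferentiableAt ℝ (iteratedFDeriv ℝ k h) v :=
    h2.differentiableAt_iteratedFDeriv (by exact_mod_cast Nat.lt_succ_self k)
  exact h3.hasFDerivAt

/-- interpolation for the derivatives of order `k + 1` -/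
theorem interp_succ {h : E → F} {V : Set E} (hV : IsOpen V) (hh : ContDiffOn ℝ ∞ h V) (k : ℕ)
    {u : E} {s A M : ℝ} (hs : 0 < s) (hM0 : 0 ≤ M) (hsV : closedBall u s ⊆ V)
    (hA : ∀ v ∈ closedBall u s, ‖iteratedFDeriv ℝ k h v‖ ≤ A)
    (hM : ∀ v ∈ closedBall u s, ‖iteratedFDeriv ℝ (k + 2) h v‖ ≤ M) :
    ‖iteratedFDeriv ℝ (k + 1) h u‖ ≤ 2 * A / s + M * s := by
  have e1 : ∀ v, fderiv ℝ (iteratedFDeriv ℝ k h) v
      = continuousMultilinearCurryLeftEquiv ℝ (fun _ : Fin (k + 1) => E) F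
        (iteratedFDeriv ℝ (k + 1) h v) := by
    intro v
    rw [fderiv_iteratedFDeriv]
    rfl
  have hu : u ∈ closedBall u s := mem_closedBall_self hs.le
  have key := interp_one (h := iteratedFDeriv ℝ k h) (h1 := fderiv ℝ (iteratedFDeriv ℝ k h))
    (u := u) hs hM0 hA (fun v hv => hasFDerivAt_iter' hV hh k (hsV hv)) fun v hv => ?_
  · rwa [norm_fderiv_iteratedFDeriv] at key
  · rw [e1, e1, ← LinearIsometryEquiv.map_sub, LinearIsometryEquiv.norm_map]
    exact (convex_closedBall u s).norm_image_sub_le_of_norm_hasFDerivWithin_le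
      (f := iteratedFDeriv ℝ (k + 1) h) (f' := fderiv ℝ (iteratedFDeriv ℝ (k + 1) h))
      (fun x hx => (hasFDerivAt_iter' hV hh (k + 1) (hsV hx)).hasFDerivWithinAt)
      (fun x hx => by rw [norm_fderiv_iteratedFDeriv]; exact hM x hx) hu hv

/-- **interpolation**: a bound `A ≤ 1` of `h` and bounds of its derivatives on a ball of radius `t`
give the bound `C A^(2^{-k})` of the `k`-th derivative on a smaller ball; `C` only depends on `k`,
`t` and the bounds -/
theorem interp_iter (M : ℕ → ℝ) {t : ℝ} (ht : 0 < t) (k : ℕ) :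
    ∃ C, 0 ≤ C ∧ ∀ (h : E → F) (u : E) (A : ℝ), 0 ≤ A → A ≤ 1 → ContDiffOn ℝ ∞ h (ball u t) →
      (∀ j, ∀ v ∈ ball u t, ‖iteratedFDeriv ℝ j h v‖ ≤ M j) → (∀ v ∈ ball u t, ‖h v‖ ≤ A) →
      ∀ v ∈ ball u (t / 2 ^ k), ‖iteratedFDeriv ℝ k h v‖ ≤ C * A ^ ((1 / 2 : ℝ) ^ k) := by
  induction k with
  | zero =>
    refine ⟨1, zero_le_one, fun h u A _ _ _ _ hA v hv => ?_⟩
    rw [pow_zero, div_one] at hv
    rw [norm_iteratedFDeriv_zero, pow_zero, Real.rpow_one, one_mul]
    exact hA v hv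
  | succ k ih =>
    obtain ⟨C, hC0, hC⟩ := ih
    set M2 := max (M (k + 2)) 0 with hM2
    have hM20 : 0 ≤ M2 := le_max_right _ _
    refine ⟨2 ^ (k + 3) * C / t + M2 * t, by positivity,
      fun h u A hA0 hA1 hh hM hA v hv => ?_⟩
    rcases hA0.eq_or_lt with hz | hpos
    · -- `h = 0` on the ball
      have h0 : h =ᶠ[𝓝 v] fun _ => 0 := by
        have hvt : v ∈ ball u t := by
          refine ball_subset_ball ?_ hv
          exact div_le_self ht.le (one_le_pow₀ one_le_two)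
        filter_upwards [isOpen_ball.mem_nhds hvt] with w hw
        have := hA w hw
        rw [← hz] at this
        exact norm_le_zero_iff.1 this
      have h1 : iteratedFDeriv ℝ (k + 1) h v = 0 := by
        rw [(h0.iteratedFDeriv ℝ (k + 1)).self_of_nhds]
        simp
      rw [h1, norm_zero]
      positivity
    set a := A ^ ((1 / 2 : ℝ) ^ (k + 1)) with ha
    have ha0 : 0 < a := Real.rpow_pos_of_pos hpos _
    have ha1 : a ≤ 1 := Real.rpow_le_one hA0 hA1 (by positivity)
    have haa : A ^ ((1 / 2 : ℝ) ^ k) = a * a := by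
      rw [ha, ← Real.rpow_add hpos]
      congr 1
      rw [pow_succ]
      ring
    set s := t / 2 ^ (k + 2) * a with hs
    have hs0 : 0 < s := by positivity
    have hsle : s ≤ t / 2 ^ (k + 2) := mul_le_of_le_one_right (by positivity) ha1
    have hlt : s < t / 2 ^ (k + 1) := by
      refine hsle.trans_lt ?_
      apply div_lt_div_of_pos_left ht (by positivity)
      exact pow_lt_pow_right₀ one_lt_two (Nat.lt_succ_self _)
    have hsub : closedBall v s ⊆ ball u (t / 2 ^ k) := by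
      intro w hw
      rw [mem_closedBall] at hw
      rw [mem_ball] at hv ⊢
      have e : t / 2 ^ k = t / 2 ^ (k + 1) + t / 2 ^ (k + 1) := by
        rw [pow_succ]; field_simp; norm_num
      calc dist w u ≤ dist w v + dist v u := dist_triangle _ _ _
        _ < t / 2 ^ (k + 1) + t / 2 ^ (k + 1) := by linarith
        _ = _ := e.symm
    have hsub2 : closedBall v s ⊆ ball u t := hsub.trans (ball_subset_ball
      (div_le_self ht.le (one_le_pow₀ one_le_two)))
    have key := interp_succ isOpen_ball hh k hs0 hM20 hsub2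
      (fun w hw => (hC h u A hA0 hA1 hh hM hA w (hsub hw)))
      (fun w hw => (hM (k + 2) w (hsub2 hw)).trans (le_max_left _ _))
    refine key.trans ?_
    rw [haa]
    have e2 : 2 * (C * (a * a)) / s = 2 ^ (k + 3) * C / t * a := by
      rw [hs, pow_succ 2 (k + 2)]
      field_simp
    rw [e2, add_mul]
    have h5 : M2 * s ≤ M2 * t * a := by
      rw [hs, mul_assoc]
      refine mul_le_mul_of_nonneg_left ?_ hM20
      exact mul_le_mul_of_nonneg_right (div_le_self ht.le (one_le_pow₀ one_le_two)) ha0.le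
    linarith

/-- **Hölder dependence of the derivatives**: a family `f : W → E → F` with uniformly bounded
derivatives on balls of radius `t` around the points of `P w w'`, and a Hölder bound of order 0
there, has Hölder bounds of all orders -/
theorem holder_all {W : Type*} (f : W → E → F) (δ : W → W → ℝ) (V : W → Set E)
    (P : W → W → Set E) (M : ℕ → ℝ) {t C α : ℝ} (ht : 0 < t) (hα : 0 < α)
    (hδ : ∀ w w', 0 ≤ δ w w') (hV : ∀ w, IsOpen (V w)) (hf : ∀ w, ContDiffOn ℝ ∞ (f w) (V w))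
    (hM : ∀ w, ∀ k, ∀ u ∈ V w, ‖iteratedFDeriv ℝ k (f w) u‖ ≤ M k)
    (hPV : ∀ w w', δ w w' ≤ 1 → ∀ u ∈ P w w', ball u t ⊆ V w ∧ ball u t ⊆ V w')
    (hP : ∀ w w', ∀ u ∈ P w w', u ∈ V w ∧ u ∈ V w')
    (h0 : ∀ w w', δ w w' ≤ 1 → ∀ u ∈ P w w', ∀ v ∈ ball u t,
      ‖f w v - f w' v‖ ≤ C * δ w w' ^ α) (k : ℕ) :
    ∃ C' α' : ℝ, 0 ≤ C' ∧ 0 < α' ∧ ∀ w w', ∀ u ∈ P w w',
      ‖iteratedFDeriv ℝ k (f w) u - iteratedFDeriv ℝ k (f w') u‖ ≤ C' * δ w w' ^ α' := by
  obtain ⟨C1, hC10, hC1⟩ := interp_iter (E := E) (F := F) (fun k => M k + M k) ht k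
  set γ : ℝ := (1 / 2 : ℝ) ^ k with hγ
  have hγ0 : 0 < γ := by positivity
  have hγ1 : γ ≤ 1 := pow_le_one₀ (by norm_num) (by norm_num)
  set D : ℝ := max C 1 with hD
  have hD1 : 1 ≤ D := le_max_right _ _
  have hD0 : 0 < D := by linarith
  set Mk : ℝ := max (M k) 0 with hMk
  have hMk0 : 0 ≤ Mk := le_max_right _ _
  refine ⟨max (C1 * D ^ γ) (2 * Mk * D ^ γ), α * γ, le_max_of_le_left (by positivity),
    by positivity, fun w w' u hu => ?_⟩
  have hDγ : 1 ≤ D ^ γ := Real.one_le_rpow hD1 hγ0.le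
  -- trivial bound when `D δ^α ≥ 1`
  have htriv : ‖iteratedFDeriv ℝ k (f w) u - iteratedFDeriv ℝ k (f w') u‖ ≤ 2 * Mk := by
    obtain ⟨h1, h2⟩ := hP w w' u hu
    refine (norm_sub_le _ _).trans ?_
    have := hM w k u h1
    have := hM w' k u h2
    have := le_max_left (M k) 0
    linarith
  have hδα : 0 ≤ δ w w' ^ α := Real.rpow_nonneg (hδ w w') _
  have hpow : δ w w' ^ (α * γ) = (δ w w' ^ α) ^ γ := Real.rpow_mul (hδ w w') _ _
  by_cases hbig : 1 ≤ D * δ w w' ^ α
  · refine htriv.trans ?_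
    have h1 : 1 ≤ D ^ γ * δ w w' ^ (α * γ) := by
      rw [hpow, ← Real.mul_rpow hD0.le hδα]
      exact Real.one_le_rpow hbig hγ0.le
    have h2 : 0 ≤ δ w w' ^ (α * γ) := Real.rpow_nonneg (hδ w w') _
    calc 2 * Mk = 2 * Mk * 1 := (mul_one _).symm
      _ ≤ 2 * Mk * (D ^ γ * δ w w' ^ (α * γ)) := mul_le_mul_of_nonneg_left h1 (by positivity)
      _ = (2 * Mk * D ^ γ) * δ w w' ^ (α * γ) := by ring
      _ ≤ _ := mul_le_mul_of_nonneg_right (le_max_right _ _) h2
  · have hlt : D * δ w w' ^ α ≤ 1 := (not_le.1 hbig).le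
    have hδ1 : δ w w' ≤ 1 := by
      by_contra hcon
      have h1 : 1 < δ w w' := not_le.1 hcon
      have h2 : 1 < δ w w' ^ α := Real.one_lt_rpow h1 hα
      have : 1 < D * δ w w' ^ α := by nlinarith
      linarith
    obtain ⟨hs1, hs2⟩ := hPV w w' hδ1 u hu
    have hA0 : 0 ≤ D * δ w w' ^ α := by positivity
    have hsub : ∀ j, ∀ v ∈ ball u t, iteratedFDeriv ℝ j (fun x => f w x - f w' x) v
        = iteratedFDeriv ℝ j (f w) v - iteratedFDeriv ℝ j (f w') v := by
      intro j v hv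
      have c1 : ContDiffAt ℝ j (f w) v :=
        (((hf w).contDiffAt ((hV w).mem_nhds (hs1 hv))).of_le (by exact_mod_cast le_top))
      have c2 : ContDiffAt ℝ j (f w') v :=
        (((hf w').contDiffAt ((hV w').mem_nhds (hs2 hv))).of_le (by exact_mod_cast le_top))
      exact iter_sub c1 c2
    have key := hC1 (fun x => f w x - f w' x) u (D * δ w w' ^ α) hA0 hlt
      (((hf w).mono hs1).sub ((hf w').mono hs2)) (fun j v hv => by
        rw [hsub j v hv]
        exact (norm_sub_le _ _).trans (add_le_add (hM w j v (hs1 hv)) (hM w' j v (hs2 hv))))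
      (fun v hv => (h0 w w' hδ1 u hu v hv).trans
        (mul_le_mul_of_nonneg_right (le_max_left _ _) hδα)) u
      (mem_ball_self (by positivity))
    rw [hsub k u (mem_ball_self ht)] at key
    refine key.trans ?_
    rw [Real.mul_rpow hD0.le hδα, ← hpow, ← mul_assoc]
    exact mul_le_mul_of_nonneg_right (le_max_left _ _) (Real.rpow_nonneg (hδ w w') _)

end interp

/-! ### uniform bounds when the parameter space is compact, parametric integrals -/

section compact

variable {Z : Type v} [TopologicalSpace Z] {E F : Type}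
  [NormedAddCommGroup E] [NormedSpace ℝ E] [NormedAddCommGroup F] [NormedSpace ℝ F]

theorem JC.bound_univ [CompactSpace Z] [ProperSpace E] {f : Z → E → F} {r r' : ℝ}
    (h : JC f (univ ×ˢ ball (0 : E) r)) (hr : r' < r) (k : ℕ) :
    ∃ C, ∀ z, ∀ u ∈ closedBall (0 : E) r', ‖iteratedFDeriv ℝ k (f z) u‖ ≤ C := by
  obtain ⟨C, hC⟩ := h.bound (isCompact_univ.prod (isCompact_closedBall (0 : E) r'))
    (prod_mono subset_rfl (closedBall_subset_ball hr)) k
  exact ⟨C, fun z u hu => hC (z, u) ⟨mem_univ _, hu⟩⟩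

/-- the set of the points where the integrand is defined for all `t ∈ [a, b]` -/
def idom (a b : ℝ) (T : Set ((Z × ℝ) × E)) : Set (Z × E) :=
  {p | ∀ t ∈ uIcc a b, ((p.1, t), p.2) ∈ T}

theorem idom_ev {a b : ℝ} {T : Set ((Z × ℝ) × E)} (hT : IsOpen T) {p : Z × E}
    (hp : p ∈ idom a b T) : ∀ᶠ q in 𝓝 p, q ∈ idom a b T := by
  refine (isCompact_uIcc (a := a) (b := b)).eventually_forall_of_forall_eventually
    (x₀ := p) (P := fun q t => ((q.1, t), q.2) ∈ T) fun t ht => ?_
  have h1 : Continuous fun q : (Z × E) × ℝ => (((q.1.1, q.2), q.1.2) : (Z × ℝ) × E) := by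
    fun_prop
  exact h1.continuousAt.eventually (hT.mem_nhds (hp t ht))

theorem isOpen_idom (a b : ℝ) {T : Set ((Z × ℝ) × E)} (hT : IsOpen T) :
    IsOpen (idom a b T) := isOpen_iff_mem_nhds.2 fun _ hp => idom_ev hT hp

/-- local boundedness, uniformly in `t ∈ [a, b]` -/
theorem idom_bound {a b : ℝ} {T : Set ((Z × ℝ) × E)} {f : Z × ℝ → E → F} (hT : IsOpen T)
    (hf : ContinuousOn (fun p : (Z × ℝ) × E => f p.1 p.2) T) {p : Z × E}
    (hp : p ∈ idom a b T) : ∃ M : ℝ, ∀ᶠ q in 𝓝 p, ∀ t ∈ uIcc a b,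
      ((q.1, t), q.2) ∈ T ∧ ‖f (q.1, t) q.2‖ ≤ M := by
  have hcont : ContinuousOn (fun t => f (p.1, t) p.2) (uIcc a b) :=
    hf.comp (f := fun t : ℝ => (((p.1, t), p.2) : (Z × ℝ) × E)) (by fun_prop) fun t ht => hp t ht
  obtain ⟨M, hM⟩ := (isCompact_uIcc (a := a) (b := b)).exists_bound_of_continuousOn hcont
  refine ⟨M + 1, ?_⟩
  refine (isCompact_uIcc (a := a) (b := b)).eventually_forall_of_forall_eventually
    (x₀ := p) (P := fun q t => ((q.1, t), q.2) ∈ T ∧ ‖f (q.1, t) q.2‖ ≤ M + 1) fun t ht => ?_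
  have h1 : Continuous fun q : (Z × E) × ℝ => (((q.1.1, q.2), q.1.2) : (Z × ℝ) × E) := by
    fun_prop
  have h2 : ContinuousAt (fun q : (Z × ℝ) × E => ‖f q.1 q.2‖) ((p.1, t), p.2) :=
    (hf.continuousAt (hT.mem_nhds (hp t ht))).norm
  have h3 : ∀ᶠ q in 𝓝 (((p.1, t), p.2) : (Z × ℝ) × E), ‖f q.1 q.2‖ < M + 1 :=
    h2.eventually (gt_mem_nhds (by have := hM t ht; linarith))
  have h4 : ∀ᶠ q in 𝓝 (((p.1, t), p.2) : (Z × ℝ) × E), q ∈ T := hT.mem_nhds (hp t ht)
  have h5 : ∀ᶠ q in 𝓝 (((p.1, t), p.2) : (Z × ℝ) × E), q ∈ T ∧ ‖f q.1 q.2‖ ≤ M + 1 :=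
    h4.and (h3.mono fun _ h => h.le)
  exact (h1.tendsto (p, t)).eventually h5

theorem idom_int {a b : ℝ} {T : Set ((Z × ℝ) × E)} {f : Z × ℝ → E → F}
    (hf : ContinuousOn (fun p : (Z × ℝ) × E => f p.1 p.2) T) {p : Z × E}
    (hp : p ∈ idom a b T) : ContinuousOn (fun t => f (p.1, t) p.2) (uIcc a b) :=
  hf.comp (f := fun t : ℝ => (((p.1, t), p.2) : (Z × ℝ) × E)) (by fun_prop) fun t ht => hp t ht

theorem idom_cont {a b : ℝ} {T : Set ((Z × ℝ) × E)} {f : Z × ℝ → E → F} (hT : IsOpen T)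
    (hf : ContinuousOn (fun p : (Z × ℝ) × E => f p.1 p.2) T) [FirstCountableTopology Z] :
    ContinuousOn (fun p : Z × E => ∫ t in a..b, f (p.1, t) p.2) (idom a b T) := by
  intro p hp
  obtain ⟨M, hM⟩ := idom_bound hT hf hp
  refine ContinuousAt.continuousWithinAt ?_
  refine intervalIntegral.continuousAt_of_dominated_interval (bound := fun _ => M) ?_ ?_
    intervalIntegrable_const ?_
  · filter_upwards [idom_ev hT hp] with q hq
    exact ((idom_int hf hq).mono uIoc_subset_uIcc).aestronglyMeasurable measurableSet_uIoc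
  · filter_upwards [hM] with q hq
    exact Eventually.of_forall fun t ht => (hq t (uIoc_subset_uIcc ht)).2
  · refine Eventually.of_forall fun t ht => ?_
    have h1 : Continuous fun q : Z × E => (((q.1, t), q.2) : (Z × ℝ) × E) := by fun_prop
    exact (hf.continuousAt (hT.mem_nhds (hp t (uIoc_subset_uIcc ht)))).comp
      (f := fun q : Z × E => (((q.1, t), q.2) : (Z × ℝ) × E)) h1.continuousAt

theorem JCn.integral [FirstCountableTopology Z] [CompleteSpace F] {n : ℕ} {a b : ℝ}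
    {T : Set ((Z × ℝ) × E)} {f : Z × ℝ → E → F} (h : JCn n f T) :
    JCn n (fun z u => ∫ t in a..b, f (z, t) u) (idom a b T) := by
  induction n generalizing F with
  | zero => exact JCn_zero.2 ⟨isOpen_idom a b h.isOpen, idom_cont h.isOpen h.continuousOn⟩
  | succ n ih =>
    obtain ⟨h1, h2, h3⟩ := JCn_succ.1 h
    have hT := h.isOpen
    refine JCn.of_hasFDerivAt (f1 := fun z u => ∫ t in a..b, fderiv ℝ (f (z, t)) u)
      (idom_cont hT h2) (fun p hp => ?_) (ih h3)
    obtain ⟨M, hM⟩ := idom_bound (f := fun z u => fderiv ℝ (f z) u) hT h3.continuousOn hp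
    have hM' : ∀ᶠ u in 𝓝 p.2, ∀ t ∈ uIcc a b,
        ((p.1, t), u) ∈ T ∧ ‖fderiv ℝ (f (p.1, t)) u‖ ≤ M := by
      have hc : Continuous fun u : E => ((p.1, u) : Z × E) := by fun_prop
      exact hc.continuousAt.eventually hM
    obtain ⟨r, hr, hball⟩ := Metric.eventually_nhds_iff_ball.1 hM'
    have key := intervalIntegral.hasFDerivAt_integral_of_dominated_of_fderiv_le
      (F := fun u t => f (p.1, t) u) (F' := fun u t => fderiv ℝ (f (p.1, t)) u)
      (x₀ := p.2) (s := ball p.2 r) (bound := fun _ => M) (a := a) (b := b) (μ := volume)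
      (ball_mem_nhds _ hr) ?_ ?_ ?_ ?_ intervalIntegrable_const ?_
    · exact key
    · filter_upwards [ball_mem_nhds p.2 hr] with u hu
      have hq : (p.1, u) ∈ idom a b T := fun t ht => (hball u hu t ht).1
      exact ((idom_int h2 hq).mono uIoc_subset_uIcc).aestronglyMeasurable measurableSet_uIoc
    · exact (idom_int h2 hp).intervalIntegrable
    · exact ((idom_int (f := fun z u => fderiv ℝ (f z) u) h3.continuousOn hp).mono uIoc_subset_uIcc).aestronglyMeasurable
        measurableSet_uIoc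
    · exact Eventually.of_forall fun t ht u hu => (hball u hu t (uIoc_subset_uIcc ht)).2
    · exact Eventually.of_forall fun t ht u hu =>
        (h1 ((p.1, t), u) (hball u hu t (uIoc_subset_uIcc ht)).1).hasFDerivAt

/-- **parametric integrals** -/
theorem JC.integral [FirstCountableTopology Z] [CompleteSpace F] {a b : ℝ}
    {T : Set ((Z × ℝ) × E)} {f : Z × ℝ → E → F} (h : JC f T) :
    JC (fun z u => ∫ t in a..b, f (z, t) u) (idom a b T) :=
  JC.of_jcn fun n => (h.jcn n).integral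

end compact

end Vale.Agent.P207.N3
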