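import Vale.Agent.P207.N3.H862.Ode

/-!
# P207, line N3: flows with jointly continuous derivatives
-/

set_option linter.unusedSectionVars false

open Set Filter Topology Metric
open scoped ContDiff

noncomputable section

namespace Vale.Agent.P207.N3

universe v w

variable {Z : Type v} [TopologicalSpace Z] {E F G H : Type}
  [NormedAddCommGroup E] [NormedSpace ℝ E] [NormedAddCommGroup F] [NormedSpace ℝ F]
  [NormedAddCommGroup G] [NormedSpace ℝ G] [NormedAddCommGroup H] [NormedSpace ℝ H]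

/-- the field of the flow rescaled to the unit interval, the time is a part of the variable -/
def scaled (X : Z → E → E) (p : Z × UI) (q : ℝ × E) : ℝ × E := (0, q.1 • X p.1 q.2)

theorem JC.scaled {X : Z → E → E} {S : Set (Z × E)} (hX : JC X S) :
    JC (Vale.Agent.P207.N3.scaled X) {p : (Z × UI) × (ℝ × E) | (p.1.1, p.2.2) ∈ S} := by
  have hS : IsOpen {p : (Z × UI) × (ℝ × E) | (p.1.1, p.2.2) ∈ S} :=
    hX.isOpen.preimage (f := fun p : (Z × UI) × (ℝ × E) => ((p.1.1, p.2.2) : Z × E)) (by fun_prop)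
  have h1 : JC (fun (p : Z × UI) => X p.1) {p : (Z × UI) × E | (p.1.1, p.2) ∈ S} :=
    hX.pullback continuous_fst
  have h2 : JC (fun (_ : Z × UI) (q : ℝ × E) => q.2)
      {p : (Z × UI) × (ℝ × E) | (p.1.1, p.2.2) ∈ S} := JC.of_contDiff contDiff_snd hS
  have h3 : JC (fun (_ : Z × UI) (q : ℝ × E) => q.1)
      {p : (Z × UI) × (ℝ × E) | (p.1.1, p.2.2) ∈ S} := JC.of_contDiff contDiff_fst hS
  have h4 : JC (fun (p : Z × UI) (q : ℝ × E) => X p.1 q.2)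
      {p : (Z × UI) × (ℝ × E) | (p.1.1, p.2.2) ∈ S} := h1.comp' h2 fun p hp => hp
  exact (JC.const hS (0 : ℝ)).prodMk (h3.smul h4)

/-- a solution, rescaled to the unit interval -/
theorem curve_sol {X : Z → E → E} {z : Z} {t : ℝ} {φ : ℝ → E}
    (hφ : ∀ s ∈ uIcc 0 t, HasDerivWithinAt φ (X z (φ s)) (uIcc 0 t) s) :
    ∃ c : C(UI, ℝ × E), (∀ s : UI, c s = (t, φ (s * t))) ∧
      IsSol (fun s => scaled X (z, s)) c := by
  have hmem : ∀ s ∈ Icc (0 : ℝ) 1, s * t ∈ uIcc 0 t := by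
    intro s hs
    rcases le_total 0 t with h | h
    · rw [uIcc_of_le h]
      exact ⟨mul_nonneg hs.1 h, mul_le_of_le_one_left h hs.2⟩
    · rw [uIcc_of_ge h]
      exact ⟨by nlinarith [hs.2], mul_nonpos_of_nonneg_of_nonpos hs.1 h⟩
  have hcont : ContinuousOn φ (uIcc 0 t) := fun s hs => (hφ s hs).continuousWithinAt
  have hc : Continuous fun s : UI => φ (s * t) :=
    hcont.comp_continuous (by fun_prop) fun s => hmem s s.2
  refine ⟨⟨fun s => (t, φ (s * t)), continuous_const.prodMk hc⟩, fun s => rfl, fun s => ?_⟩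
  have h1 : HasDerivWithinAt (fun τ : ℝ => τ * t) t (Icc 0 1) (s : ℝ) := by
    have := ((hasDerivAt_id (s : ℝ)).mul_const t).hasDerivWithinAt (s := Icc (0 : ℝ) 1)
    simpa using this
  have h2 : HasDerivWithinAt (fun τ : ℝ => φ (τ * t)) (t • X z (φ (s * t))) (Icc 0 1) (s : ℝ) :=
    HasDerivWithinAt.scomp (s : ℝ) (hφ (s * t) (hmem s s.2)) h1 fun τ hτ => hmem τ hτ
  have h3 : HasDerivWithinAt (fun τ : ℝ => ((t, φ (τ * t)) : ℝ × E))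
      ((0 : ℝ), t • X z (φ (s * t))) (Icc 0 1) (s : ℝ) :=
    (hasDerivWithinAt_const _ _ _).prodMk h2
  refine h3.congr (fun τ hτ => ?_) ?_
  · rw [ext_of_mem _ hτ]; rfl
  · rw [ext_apply]; rfl

/-- solutions near a given one; `W z (t, u)` is the solution with initial value `u` on `[0, t]`,
rescaled to the unit interval -/
theorem JC.flow_at [CompleteSpace E] {X : Z → E → E} {S : Set (Z × E)} (hX : JC X S) {z₀ : Z}
    {t₀ : ℝ} {φ : ℝ → E}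
    (hφ : ∀ s ∈ uIcc 0 t₀, HasDerivWithinAt φ (X z₀ (φ s)) (uIcc 0 t₀) s)
    (hS : ∀ s ∈ uIcc 0 t₀, (z₀, φ s) ∈ S) :
    ∃ (N : Set (Z × (ℝ × E))) (W : Z → ℝ × E → C(UI, ℝ × E)), JC W N ∧ (z₀, (t₀, φ 0)) ∈ N ∧
      ∀ p ∈ N, (∀ s, (p.1, (W p.1 p.2 s).2) ∈ S) ∧ W p.1 p.2 0 = p.2 ∧
        IsSol (fun s => Vale.Agent.P207.N3.scaled X (p.1, s)) (W p.1 p.2) := by
  obtain ⟨c, hc, hcs⟩ := curve_sol hφ
  have hmem : ∀ s : UI, (s : ℝ) * t₀ ∈ uIcc 0 t₀ := by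
    rintro ⟨s, hs⟩
    rcases le_total 0 t₀ with h | h
    · rw [uIcc_of_le h]
      exact ⟨mul_nonneg hs.1 h, mul_le_of_le_one_left h hs.2⟩
    · rw [uIcc_of_ge h]
      exact ⟨by nlinarith [hs.2], mul_nonpos_of_nonneg_of_nonpos hs.1 h⟩
  have hn : (z₀, c) ∈ ndom {p : (Z × UI) × (ℝ × E) | (p.1.1, p.2.2) ∈ S} := by
    intro s
    show (z₀, (c s).2) ∈ S
    rw [hc s]
    exact hS _ (hmem s)
  obtain ⟨N, W, hW, hN0, -, hNp, -⟩ := hX.scaled.ode hn hcs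
  have h0 : c 0 = (t₀, φ 0) := by
    rw [hc 0]
    have : ((0 : UI) : ℝ) = 0 := rfl
    rw [this, zero_mul]
  rw [h0] at hN0
  exact ⟨N, W, hW, hN0, fun p hp => ⟨fun s => (hNp p hp).1 s, (hNp p hp).2.1, (hNp p hp).2.2⟩⟩

theorem sol_unique {X : Z → E → E} {S : Set (Z × E)} (hX : JC X S) {z : Z} {a b : C(UI, ℝ × E)}
    (haS : ∀ s, (z, (a s).2) ∈ S) (ha : IsSol (fun s => scaled X (z, s)) a)
    (hb : IsSol (fun s => scaled X (z, s)) b) (h0 : a 0 = b 0) : a = b := by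
  have h1 : JC (fun s : UI => scaled X (z, s))
      {p : UI × (ℝ × E) | (((z, p.1), p.2) : (Z × UI) × (ℝ × E)) ∈
        {p : (Z × UI) × (ℝ × E) | (p.1.1, p.2.2) ∈ S}} :=
    hX.scaled.pullback (c := fun s : UI => (z, s)) (by fun_prop)
  exact IsSol.unique (h1.jcn 1) (fun s => haS s) ha hb h0

/-- **flows**: if `Φ` is a local flow of a field `X` with jointly continuous derivatives, on an open
set `D` which is star shaped in the time direction, then `Φ` has jointly continuous derivatives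
of all orders in the time and the initial value -/
theorem JC.flow [CompleteSpace E] {X : Z → E → E} {S : Set (Z × E)} (hX : JC X S)
    {Φ : Z → ℝ → E → E} {D : Set (Z × (ℝ × E))} (hD : IsOpen D)
    (hstar : ∀ z t u, (z, (t, u)) ∈ D → ∀ s ∈ uIcc 0 t, (z, (s, u)) ∈ D)
    (h0 : ∀ z u, (z, ((0 : ℝ), u)) ∈ D → Φ z 0 u = u)
    (hS : ∀ z t u, (z, (t, u)) ∈ D → (z, Φ z t u) ∈ S)
    (hd : ∀ z t u, (z, (t, u)) ∈ D → HasDerivAt (fun s => Φ z s u) (X z (Φ z t u)) t) :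
    JC (fun z (p : ℝ × E) => Φ z p.1 p.2) D := by
  have hz : ∀ {z t u}, (z, (t, u)) ∈ D → Φ z 0 u = u := fun {z t u} h =>
    h0 z u (hstar z t u h 0 left_mem_uIcc)
  refine JC.of_local hD ?_
  rintro ⟨z₀, ⟨t₀, u₀⟩⟩ hp
  obtain ⟨N, W, hW, hN0, hN⟩ := hX.flow_at (z₀ := z₀) (t₀ := t₀) (φ := fun s => Φ z₀ s u₀)
    (fun s hs => (hd z₀ s u₀ (hstar _ _ _ hp s hs)).hasDerivWithinAt)
    (fun s hs => hS z₀ s u₀ (hstar _ _ _ hp s hs))
  rw [hz hp] at hN0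
  refine ⟨N ∩ D, ⟨hN0, hp⟩, ?_⟩
  have h1 := (hW.clm ((ContinuousLinearMap.snd ℝ ℝ E).comp
    (ContinuousMap.evalCLM ℝ (1 : UI) : C(UI, ℝ × E) →L[ℝ] ℝ × E))).mono
    (hW.isOpen.inter hD) inter_subset_left
  refine h1.congr ?_
  rintro ⟨z, ⟨t, u⟩⟩ ⟨hpN, hpD⟩
  obtain ⟨c, hc, hcs⟩ := curve_sol (X := X) (z := z) (t := t) (φ := fun s => Φ z s u)
    (fun s hs => (hd z s u (hstar _ _ _ hpD s hs)).hasDerivWithinAt)
  have hmem : ∀ s : UI, (s : ℝ) * t ∈ uIcc 0 t := by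
    rintro ⟨s, hs⟩
    rcases le_total 0 t with h | h
    · rw [uIcc_of_le h]
      exact ⟨mul_nonneg hs.1 h, mul_le_of_le_one_left h hs.2⟩
    · rw [uIcc_of_ge h]
      exact ⟨by nlinarith [hs.2], mul_nonpos_of_nonneg_of_nonpos hs.1 h⟩
  have h2 : c = W z (t, u) := by
    refine sol_unique hX (fun s => ?_) hcs (hN _ hpN).2.2 ?_
    · rw [hc s]
      exact hS _ _ _ (hstar _ _ _ hpD _ (hmem s))
    · have h3 := (hN _ hpN).2.1
      have h4 : W z (t, u) 0 = (t, u) := h3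
      rw [h4, hc 0]
      have : ((0 : UI) : ℝ) = 0 := rfl
      rw [this, zero_mul, hz hpD]
  show Φ z t u = (W z (t, u) 1).2
  rw [← h2, hc 1]
  have : ((1 : UI) : ℝ) = 1 := rfl
  rw [this, one_mul]

/-- complete flows -/
theorem JC.flow_univ [CompleteSpace E] {X : Z → E → E} (hX : JC X univ) {Φ : Z → ℝ → E → E}
    (h0 : ∀ z u, Φ z 0 u = u) (hd : ∀ z t u, HasDerivAt (fun s => Φ z s u) (X z (Φ z t u)) t) :
    JC (fun z (p : ℝ × E) => Φ z p.1 p.2) univ :=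
  hX.flow isOpen_univ (fun _ _ _ _ _ _ => mem_univ _) (fun z u _ => h0 z u)
    (fun _ _ _ _ => mem_univ _) fun z t u _ => hd z t u

/-- the time becomes a parameter -/
theorem JC.time {f : Z → ℝ × E → F} {D : Set (Z × (ℝ × E))} (h : JC f D) :
    JC (fun (z : Z × ℝ) (u : E) => f z.1 (z.2, u)) {p | (p.1.1, (p.1.2, p.2)) ∈ D} := h.split

/-- uniqueness of solutions -/
theorem JC.sol_eq {X : Z → E → E} {S : Set (Z × E)} (hX : JC X S) {z : Z} {t : ℝ}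
    {φ ψ : ℝ → E} (hφ : ∀ s ∈ uIcc 0 t, HasDerivWithinAt φ (X z (φ s)) (uIcc 0 t) s)
    (hψ : ∀ s ∈ uIcc 0 t, HasDerivWithinAt ψ (X z (ψ s)) (uIcc 0 t) s)
    (hS : ∀ s ∈ uIcc 0 t, (z, φ s) ∈ S) (h0 : φ 0 = ψ 0) : φ t = ψ t := by
  obtain ⟨a, ha, has⟩ := curve_sol hφ
  obtain ⟨b, hb, hbs⟩ := curve_sol hψ
  have hmem : ∀ s : UI, (s : ℝ) * t ∈ uIcc 0 t := by
    rintro ⟨s, hs⟩
    rcases le_total 0 t with h | h
    · rw [uIcc_of_le h]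
      exact ⟨mul_nonneg hs.1 h, mul_le_of_le_one_left h hs.2⟩
    · rw [uIcc_of_ge h]
      exact ⟨by nlinarith [hs.2], mul_nonpos_of_nonneg_of_nonpos hs.1 h⟩
  have h1 : a = b := by
    refine sol_unique hX (fun s => ?_) has hbs ?_
    · rw [ha s]; exact hS _ (hmem s)
    · rw [ha 0, hb 0]
      have : ((0 : UI) : ℝ) = 0 := rfl
      rw [this, zero_mul, h0]
  have h2 := congrArg (fun c : C(UI, ℝ × E) => (c 1).2) h1
  simp only [ha, hb] at h2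
  have : ((1 : UI) : ℝ) = 1 := rfl
  rwa [this, one_mul] at h2

/-- **local flows** -/
theorem JC.exists_flow [CompleteSpace E] {X : Z → E → E} {S : Set (Z × E)} (hX : JC X S)
    {z₀ : Z} {u₀ : E} (hp : (z₀, u₀) ∈ S) :
    ∃ (N : Set (Z × E)) (δ : ℝ) (Φ : Z → ℝ → E → E), IsOpen N ∧ (z₀, u₀) ∈ N ∧ 0 < δ ∧
      JC (fun z (p : ℝ × E) => Φ z p.1 p.2) {p | (p.1, p.2.2) ∈ N ∧ p.2.1 ∈ Ioo (-δ) δ} ∧
      (∀ p ∈ N, Φ p.1 0 p.2 = p.2) ∧ ∀ p ∈ N, ∀ t ∈ Ioo (-δ) δ, (p.1, Φ p.1 t p.2) ∈ S ∧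
        HasDerivAt (fun s => Φ p.1 s p.2) (X p.1 (Φ p.1 t p.2)) t := by
  obtain ⟨N', W, hW, hN0, hN⟩ := hX.flow_at (z₀ := z₀) (t₀ := 0) (φ := fun _ => u₀)
    (fun s hs => by
      rw [uIcc_self]
      exact HasFDerivWithinAt.singleton)
    (fun s _ => hp)
  have hev : ∀ᶠ q : (Z × E) × ℝ in 𝓝 ((z₀, u₀), (0 : ℝ)), (q.1.1, (q.2, q.1.2)) ∈ N' := by
    have hc : Continuous fun q : (Z × E) × ℝ => ((q.1.1, (q.2, q.1.2)) : Z × (ℝ × E)) := by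
      fun_prop
    exact (hc.tendsto ((z₀, u₀), (0 : ℝ))).eventually (hW.isOpen.mem_nhds hN0)
  rw [nhds_prod_eq] at hev
  obtain ⟨P1, hP1, P2, hP2, hP⟩ := eventually_prod_iff.1 hev
  obtain ⟨N, hNP, hNo, hzN⟩ := eventually_nhds_iff.1 hP1
  obtain ⟨ρ, hρ, hball⟩ := Metric.eventually_nhds_iff_ball.1 hP2
  set δ : ℝ := ρ / 2 with hδ
  have hδ0 : 0 < δ := by positivity
  have hin : ∀ p ∈ N, ∀ t : ℝ, |t| ≤ δ → (p.1, (t, p.2)) ∈ N' := by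
    intro p hp t ht
    refine hP (hNP p hp) (hball t ?_)
    rw [mem_ball, Real.dist_eq, sub_zero]
    linarith
  have hplus : ∀ p ∈ N, (p.1, (δ, p.2)) ∈ N' := fun p hp => hin p hp δ (abs_of_pos hδ0).le
  have hminus : ∀ p ∈ N, (p.1, (-δ, p.2)) ∈ N' := fun p hp =>
    hin p hp (-δ) (by rw [abs_neg, abs_of_pos hδ0])
  -- the first component is constant
  have hfst : ∀ p ∈ N', ∀ s : UI, (W p.1 p.2 s).1 = p.2.1 := by
    intro p hp s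
    obtain ⟨-, h2, h3⟩ := hN p hp
    have h4 : ∀ t ∈ Icc (0 : ℝ) 1, HasDerivWithinAt (fun τ => (ext (W p.1 p.2) τ).1) 0
        (Icc 0 1) t := fun t ht => (h3 ⟨t, ht⟩).fst
    have h5 := constant_of_has_deriv_right_zero (f := fun τ => (ext (W p.1 p.2) τ).1) (a := 0)
      (b := 1) (continuous_fst.comp (ext (W p.1 p.2)).continuous).continuousOn (fun t ht => by
        refine (h4 t ⟨ht.1, ht.2.le⟩).mono_of_mem_nhdsWithin ?_
        exact mem_of_superset (Icc_mem_nhdsGE ht.2) (Icc_subset_Icc_left ht.1)) s s.2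
    have h6 : ext (W p.1 p.2) 0 = W p.1 p.2 0 := ext_apply _ 0
    simp only [ext_apply, h6, h2] at h5
    exact h5
  set Φ : Z → ℝ → E → E := fun z t u =>
    if 0 ≤ t then (ext (W z (δ, u)) (t / δ)).2 else (ext (W z (-δ, u)) (-t / δ)).2 with hΦ
  have hΦp : ∀ z u t, 0 ≤ t → Φ z t u = (ext (W z (δ, u)) (t / δ)).2 := fun z u t ht => by
    simp only [hΦ, if_pos ht]
  have hW0 : ∀ p ∈ N, ∀ t, |t| ≤ δ → ext (W p.1 (t, p.2)) 0 = (t, p.2) := by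
    intro p hp t ht
    have h1 : ext (W p.1 (t, p.2)) 0 = W p.1 (t, p.2) 0 := ext_apply _ 0
    rw [h1]
    exact (hN _ (hin p hp t ht)).2.1
  have hΦ0 : ∀ p ∈ N, Φ p.1 0 p.2 = p.2 := by
    intro p hp
    rw [hΦp _ _ _ le_rfl, zero_div, hW0 p hp δ (abs_of_pos hδ0).le]
  have hΦm : ∀ p ∈ N, ∀ t, t ≤ 0 → Φ p.1 t p.2 = (ext (W p.1 (-δ, p.2)) (-t / δ)).2 := by
    intro p hp t ht
    rcases ht.lt_or_eq with h | h
    · simp only [hΦ, if_neg (not_le.2 h)]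
    · rw [h, hΦ0 p hp, neg_zero, zero_div, hW0 p hp (-δ) (by rw [abs_neg, abs_of_pos hδ0])]
  have hdp : ∀ p ∈ N, ∀ t ∈ Icc 0 δ, (p.1, Φ p.1 t p.2) ∈ S ∧
      HasDerivWithinAt (fun s => Φ p.1 s p.2) (X p.1 (Φ p.1 t p.2)) (Icc 0 δ) t := by
    intro p hp t ht
    obtain ⟨h1, h2, h3⟩ := hN _ (hplus p hp)
    have hs : t / δ ∈ Icc (0 : ℝ) 1 := ⟨div_nonneg ht.1 hδ0.le, (div_le_one hδ0).2 ht.2⟩
    have h4 : HasDerivWithinAt (fun τ => (ext (W p.1 (δ, p.2)) τ).2)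
        ((W p.1 (δ, p.2) ⟨t / δ, hs⟩).1 • X p.1 (W p.1 (δ, p.2) ⟨t / δ, hs⟩).2) (Icc 0 1)
        (t / δ) := (h3 ⟨t / δ, hs⟩).snd
    have h5 : HasDerivWithinAt (fun τ : ℝ => τ / δ) (1 / δ) (Icc 0 δ) t :=
      ((hasDerivAt_id t).div_const δ).hasDerivWithinAt
    have hmaps : MapsTo (fun τ : ℝ => τ / δ) (Icc 0 δ) (Icc 0 1) := fun τ hτ =>
      ⟨div_nonneg hτ.1 hδ0.le, (div_le_one hδ0).2 hτ.2⟩
    have h6 := HasDerivWithinAt.scomp t h4 h5 hmaps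
    have h7 : Φ p.1 t p.2 = (W p.1 (δ, p.2) ⟨t / δ, hs⟩).2 := by
      rw [hΦp _ _ _ ht.1, ext_of_mem _ hs]
    constructor
    · rw [h7]; exact h1 _
    · refine (h6.congr (fun τ hτ => hΦp _ _ _ hτ.1) (hΦp _ _ _ ht.1)).congr_deriv ?_
      rw [h7]
      show (1 / δ) • ((W p.1 (δ, p.2) ⟨t / δ, hs⟩).1 • X p.1 (W p.1 (δ, p.2) ⟨t / δ, hs⟩).2) = _
      have h8 : (W p.1 (δ, p.2) ⟨t / δ, hs⟩).1 = δ := hfst _ (hplus p hp) _
      rw [h8, smul_smul, one_div, inv_mul_cancel₀ hδ0.ne', one_smul]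
  have hdm : ∀ p ∈ N, ∀ t ∈ Icc (-δ) 0, (p.1, Φ p.1 t p.2) ∈ S ∧
      HasDerivWithinAt (fun s => Φ p.1 s p.2) (X p.1 (Φ p.1 t p.2)) (Icc (-δ) 0) t := by
    intro p hp t ht
    obtain ⟨h1, h2, h3⟩ := hN _ (hminus p hp)
    have hs : -t / δ ∈ Icc (0 : ℝ) 1 := ⟨div_nonneg (by linarith [ht.2]) hδ0.le,
      (div_le_one hδ0).2 (by linarith [ht.1])⟩
    have h4 : HasDerivWithinAt (fun τ => (ext (W p.1 (-δ, p.2)) τ).2)
        ((W p.1 (-δ, p.2) ⟨-t / δ, hs⟩).1 • X p.1 (W p.1 (-δ, p.2) ⟨-t / δ, hs⟩).2) (Icc 0 1)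
        (-t / δ) := (h3 ⟨-t / δ, hs⟩).snd
    have h5 : HasDerivWithinAt (fun τ : ℝ => -τ / δ) (-1 / δ) (Icc (-δ) 0) t :=
      (((hasDerivAt_id t).neg).div_const δ).hasDerivWithinAt
    have hmaps : MapsTo (fun τ : ℝ => -τ / δ) (Icc (-δ) 0) (Icc 0 1) := fun τ hτ =>
      ⟨div_nonneg (by linarith [hτ.2]) hδ0.le, (div_le_one hδ0).2 (by linarith [hτ.1])⟩
    have h6 := HasDerivWithinAt.scomp t h4 h5 hmaps
    have h7 : Φ p.1 t p.2 = (W p.1 (-δ, p.2) ⟨-t / δ, hs⟩).2 := by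
      rw [hΦm p hp _ ht.2, ext_of_mem _ hs]
    constructor
    · rw [h7]; exact h1 _
    · refine (h6.congr (fun τ hτ => hΦm p hp _ hτ.2) (hΦm p hp _ ht.2)).congr_deriv ?_
      rw [h7]
      show (-1 / δ) • ((W p.1 (-δ, p.2) ⟨-t / δ, hs⟩).1 • X p.1 (W p.1 (-δ, p.2) ⟨-t / δ, hs⟩).2)
        = _
      have h8 : (W p.1 (-δ, p.2) ⟨-t / δ, hs⟩).1 = -δ := hfst _ (hminus p hp) _
      rw [h8, smul_smul]
      have h9 : -1 / δ * -δ = 1 := by field_simp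
      rw [h9, one_smul]
  have hd : ∀ p ∈ N, ∀ t ∈ Ioo (-δ) δ, (p.1, Φ p.1 t p.2) ∈ S ∧
      HasDerivAt (fun s => Φ p.1 s p.2) (X p.1 (Φ p.1 t p.2)) t := by
    intro p hp t ht
    rcases lt_trichotomy t 0 with h | h | h
    · obtain ⟨h1, h2⟩ := hdm p hp t ⟨ht.1.le, h.le⟩
      exact ⟨h1, h2.hasDerivAt (Icc_mem_nhds ht.1 h)⟩
    · subst h
      obtain ⟨h1, h2⟩ := hdm p hp 0 ⟨ht.1.le, le_rfl⟩
      obtain ⟨-, h3⟩ := hdp p hp 0 ⟨le_rfl, hδ0.le⟩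
      refine ⟨h1, ?_⟩
      have h4 := h2.union h3
      rw [Icc_union_Icc_eq_Icc (by linarith) hδ0.le] at h4
      exact h4.hasDerivAt (Icc_mem_nhds (by linarith) hδ0)
    · obtain ⟨h1, h2⟩ := hdp p hp t ⟨h.le, ht.2.le⟩
      exact ⟨h1, h2.hasDerivAt (Icc_mem_nhds h ht.2)⟩
  refine ⟨N, δ, Φ, hNo, hzN, hδ0, ?_, hΦ0, hd⟩
  refine hX.flow (D := {p | (p.1, p.2.2) ∈ N ∧ p.2.1 ∈ Ioo (-δ) δ}) ?_ ?_ ?_ ?_ ?_
  · have h1 : IsOpen {p : Z × (ℝ × E) | (p.1, p.2.2) ∈ N} :=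
      hNo.preimage (f := fun p : Z × (ℝ × E) => ((p.1, p.2.2) : Z × E)) (by fun_prop)
    have h2 : IsOpen {p : Z × (ℝ × E) | p.2.1 ∈ Ioo (-δ) δ} :=
      isOpen_Ioo.preimage (f := fun p : Z × (ℝ × E) => p.2.1) (by fun_prop)
    exact h1.inter h2
  · rintro z t u ⟨h1, h2⟩ s hs
    refine ⟨h1, ?_⟩
    have h3 : uIcc 0 t ⊆ Ioo (-δ) δ := by
      have : OrdConnected (Ioo (-δ) δ) := ordConnected_Ioo
      exact this.uIcc_subset ⟨by linarith, hδ0⟩ h2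
    exact h3 hs
  · rintro z u ⟨h1, h2⟩
    exact hΦ0 (z, u) h1
  · rintro z t u ⟨h1, h2⟩
    exact (hd (z, u) h1 t h2).1
  · rintro z t u ⟨h1, h2⟩
    exact (hd (z, u) h1 t h2).2

end Vale.Agent.P207.N3
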