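import Vale.Agent.P207.N3.H862.JC2

/-!
# P207, line N3: the inverse and implicit function theorems with jointly continuous derivatives
-/

set_option linter.unusedSectionVars false

open Set Filter Topology Metric
open scoped ContDiff

noncomputable section

namespace Vale.Agent.P207.N3

universe v w

variable {Z : Type v} [TopologicalSpace Z] {E F G H : Type}
  [NormedAddCommGroup E] [NormedSpace ℝ E] [NormedAddCommGroup F] [NormedSpace ℝ F]
  [NormedAddCommGroup G] [NormedSpace ℝ G] [NormedAddCommGroup H] [NormedSpace ℝ H]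

theorem JCn.comp_contDiffOn {n : ℕ} {f : Z → E → F} {S : Set (Z × E)} {φ : F → G} {U : Set F}
    (hU : IsOpen U) (hφ : ContDiffOn ℝ ∞ φ U) (hf : JCn n f S)
    (h : ∀ p ∈ S, f p.1 p.2 ∈ U) : JCn n (fun z u => φ (f z u)) S :=
  (((JC.of_contDiffOn (Z := Z) (S := univ ×ˢ U) hU hφ (isOpen_univ.prod hU)
    fun _ hp => hp.2).jcn n).comp hf).mono hf.isOpen fun p hp => ⟨hp, mem_univ _, h p hp⟩

theorem isOpen_isInvertible [CompleteSpace F] : IsOpen {A : F →L[ℝ] G | A.IsInvertible} :=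
  ContinuousLinearEquiv.isOpen (𝕜 := ℝ) (E := F) (F := G)

theorem JCn.inverse [CompleteSpace F] {n : ℕ} {S : Set (Z × E)} {A : Z → E → F →L[ℝ] G}
    (hA : JCn n A S) (h : ∀ p ∈ S, (A p.1 p.2).IsInvertible) :
    JCn n (fun z u => (A z u).inverse) S := by
  refine hA.comp_contDiffOn (φ := ContinuousLinearMap.inverse) isOpen_isInvertible
    (fun A hA' => ?_) h
  obtain ⟨e, rfl⟩ := hA'
  exact (contDiffAt_map_inverse e).contDiffWithinAt

/-- a right inverse with a positive constant -/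
def nri (A : E ≃L[ℝ] F) : (A : E →L[ℝ] F).NonlinearRightInverse where
  toFun := A.symm
  nnnorm := ‖(A.symm : F →L[ℝ] E)‖₊ + 1
  bound' y := by
    have h1 := (A.symm : F →L[ℝ] E).le_opNorm y
    have h2 : 0 ≤ ‖y‖ := norm_nonneg y
    have h3 : ((‖(A.symm : F →L[ℝ] E)‖₊ + 1 : NNReal) : ℝ) = ‖(A.symm : F →L[ℝ] E)‖ + 1 := by
      push_cast; rfl
    rw [h3]
    have h4 : ‖(A.symm : F →L[ℝ] E) y‖ = ‖A.symm y‖ := rfl
    rw [h4] at h1
    nlinarith
  right_inv' y := by simp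

/-- **the inverse function theorem with parameters** -/
theorem JC.inverse_local [CompleteSpace E] {f : Z → E → F} {S : Set (Z × E)} (hf : JC f S)
    {z₀ : Z} {u₀ : E} (h0 : (z₀, u₀) ∈ S) (hinv : (_root_.fderiv ℝ (f z₀) u₀).IsInvertible) :
    ∃ (T : Set (Z × F)) (g : Z → F → E), JC g T ∧ (z₀, f z₀ u₀) ∈ T ∧ g z₀ (f z₀ u₀) = u₀ ∧
      (∀ p ∈ T, (p.1, g p.1 p.2) ∈ S ∧ f p.1 (g p.1 p.2) = p.2) ∧
      (∀ p ∈ T, (_root_.fderiv ℝ (f p.1) (g p.1 p.2)).IsInvertible ∧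
        HasFDerivAt (g p.1) (_root_.fderiv ℝ (f p.1) (g p.1 p.2)).inverse p.2) ∧
      ∃ O : Set (Z × E), IsOpen O ∧ (z₀, u₀) ∈ O ∧ ∀ p ∈ O, (p.1, f p.1 p.2) ∈ T ∧
        g p.1 (f p.1 p.2) = p.2 := by
  obtain ⟨A, hA⟩ := hinv
  set m : ℝ := ‖(A.symm : F →L[ℝ] E)‖ + 1 with hm
  have hm0 : 0 < m := by positivity
  set c : ℝ := 1 / (2 * m) with hc
  have hc0 : 0 < c := by positivity
  have hfd := hf.fderiv
  -- the good set
  have hO1 : ∀ᶠ p in 𝓝 (z₀, u₀), p ∈ S ∧ (_root_.fderiv ℝ (f p.1) p.2).IsInvertible ∧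
      ‖_root_.fderiv ℝ (f p.1) p.2 - A‖ < c := by
    have h1 : ContinuousAt (fun p : Z × E => _root_.fderiv ℝ (f p.1) p.2) (z₀, u₀) :=
      hfd.continuousOn.continuousAt (hf.isOpen.mem_nhds h0)
    have hS0 : ∀ᶠ p in 𝓝 (z₀, u₀), p ∈ S := hf.isOpen.mem_nhds h0
    refine hS0.and (Eventually.and ?_ ?_)
    · exact h1.eventually (isOpen_isInvertible.mem_nhds ⟨A, hA⟩)
    · have h2 : ContinuousAt (fun p : Z × E => ‖_root_.fderiv ℝ (f p.1) p.2 - A‖) (z₀, u₀) :=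
        (h1.sub continuousAt_const).norm
      refine h2.eventually (gt_mem_nhds ?_)
      show ‖_root_.fderiv ℝ (f z₀) u₀ - A‖ < c
      rw [← hA, sub_self, norm_zero]
      exact hc0
  rw [nhds_prod_eq] at hO1
  obtain ⟨P1, hP1, P2, hP2, hP⟩ := eventually_prod_iff.1 hO1
  obtain ⟨N1, hN1P, hN1o, hzN1⟩ := eventually_nhds_iff.1 hP1
  obtain ⟨ρ, hρ, hball⟩ := Metric.eventually_nhds_iff_ball.1 hP2
  set r : ℝ := ρ / 2 with hr
  have hr0 : 0 < r := by positivity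
  have hgood : ∀ z ∈ N1, ∀ u ∈ ball u₀ ρ, (z, u) ∈ S ∧
      (_root_.fderiv ℝ (f z) u).IsInvertible ∧ ‖_root_.fderiv ℝ (f z) u - A‖ < c :=
    fun z hz u hu => hP (hN1P z hz) (hball u hu)
  -- linear approximation
  have happ : ∀ z ∈ N1, ApproximatesLinearOn (f z) (A : E →L[ℝ] F) (ball u₀ ρ) c.toNNReal := by
    intro z hz x hx y hy
    rw [Real.coe_toNNReal _ hc0.le]
    exact (convex_ball u₀ ρ).norm_image_sub_le_of_norm_hasFDerivWithin_le'
      (f := f z) (f' := _root_.fderiv ℝ (f z)) (φ := (A : E →L[ℝ] F)) (C := c)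
      (fun u hu => ((hf.hasFDerivAt (p := (z, u)) (hgood z hz u hu).1)).hasFDerivWithinAt)
      (fun u hu => (hgood z hz u hu).2.2.le) hy hx
  have hanti : ∀ z ∈ N1, ∀ x ∈ ball u₀ ρ, ∀ y ∈ ball u₀ ρ,
      ‖x - y‖ ≤ 2 * m * ‖f z x - f z y‖ := by
    intro z hz x hx y hy
    have h1 := happ z hz x hx y hy
    rw [Real.coe_toNNReal _ hc0.le] at h1
    have h2 : ‖x - y‖ ≤ m * ‖A (x - y)‖ := by
      have h3 := (A.symm : F →L[ℝ] E).le_opNorm (A (x - y))
      have h4 : (A.symm : F →L[ℝ] E) (A (x - y)) = x - y := by simp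
      rw [h4] at h3
      refine h3.trans (mul_le_mul_of_nonneg_right (by rw [hm]; linarith) (norm_nonneg _))
    have h5 : ‖A (x - y)‖ ≤ ‖f z x - f z y‖ + c * ‖x - y‖ := by
      have h6 : A (x - y) = (f z x - f z y) - (f z x - f z y - (A : E →L[ℝ] F) (x - y)) := by
        simp
      rw [h6]
      exact (norm_sub_le _ _).trans (by linarith)
    have h7 : m * c = 1 / 2 := by rw [hc]; field_simp
    have h8 : m * ‖A (x - y)‖ ≤ m * (‖f z x - f z y‖ + c * ‖x - y‖) :=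
      mul_le_mul_of_nonneg_left h5 hm0.le
    have h9 : m * (‖f z x - f z y‖ + c * ‖x - y‖) = m * ‖f z x - f z y‖ + 1 / 2 * ‖x - y‖ := by
      rw [mul_add, ← mul_assoc, h7]
    linarith
  set δ : ℝ := r / (4 * m) with hδ
  have hδ0 : 0 < δ := by positivity
  -- the parameters
  have hz1 : ∀ᶠ z in 𝓝 z₀, ‖f z u₀ - f z₀ u₀‖ < δ := by
    have h1 : ContinuousAt (fun p : Z × E => f p.1 p.2) (z₀, u₀) :=
      hf.continuousOn.continuousAt (hf.isOpen.mem_nhds h0)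
    have h2 : ContinuousAt (fun z : Z => f z u₀) z₀ :=
      h1.comp (f := fun z : Z => (z, u₀)) (by fun_prop)
    have h3 : ContinuousAt (fun z : Z => ‖f z u₀ - f z₀ u₀‖) z₀ :=
      (h2.sub continuousAt_const).norm
    refine h3.eventually (gt_mem_nhds ?_)
    show ‖f z₀ u₀ - f z₀ u₀‖ < δ
    rw [sub_self, norm_zero]
    exact hδ0
  obtain ⟨N2, hN2P, hN2o, hzN2⟩ := eventually_nhds_iff.1 hz1
  set N := N1 ∩ N2 with hN
  have hNo : IsOpen N := hN1o.inter hN2o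
  set T : Set (Z × F) := N ×ˢ ball (f z₀ u₀) δ with hT
  have hTo : IsOpen T := hNo.prod isOpen_ball
  have hsub : closedBall u₀ r ⊆ ball u₀ ρ := closedBall_subset_ball (by rw [hr]; linarith)
  have hex : ∀ p ∈ T, ∃ u ∈ closedBall u₀ r, f p.1 u = p.2 := by
    rintro ⟨z, v⟩ ⟨hz, hv⟩
    have h1 := (happ z hz.1).surjOn_closedBall_of_nonlinearRightInverse (nri A) hr0.le hsub
    refine h1 ?_
    have h2 : (((nri A).nnnorm : ℝ)⁻¹ - (c.toNNReal : ℝ)) * r = 2 * δ := by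
      rw [Real.coe_toNNReal _ hc0.le]
      have h3 : ((nri A).nnnorm : ℝ) = m := by
        rw [nri]; push_cast; rfl
      rw [h3, hc, hδ]
      field_simp
      ring
    rw [h2, mem_closedBall]
    have h4 : dist v (f z₀ u₀) < δ := hv
    have h5 : dist (f z u₀) (f z₀ u₀) < δ := by
      rw [dist_eq_norm]; exact hN2P z hz.2
    have h6 := dist_triangle v (f z₀ u₀) (f z u₀)
    rw [dist_comm (f z₀ u₀) (f z u₀)] at h6
    show dist v (f z u₀) ≤ 2 * δ
    linarith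
  classical
  let g : Z → F → E := fun z v => if h : ∃ u ∈ closedBall u₀ r, f z u = v then h.choose else u₀
  have hg : ∀ p ∈ T, g p.1 p.2 ∈ closedBall u₀ r ∧ f p.1 (g p.1 p.2) = p.2 := by
    intro p hp
    have h1 := hex p hp
    have h2 : g p.1 p.2 = h1.choose := dif_pos h1
    rw [h2]
    exact h1.choose_spec
  have hgc : ContinuousOn (fun p : Z × F => g p.1 p.2) T := by
    rintro ⟨z₁, v₁⟩ hp
    refine ContinuousAt.continuousWithinAt ?_
    have hg1 := hg _ hp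
    have hS1 : (z₁, g z₁ v₁) ∈ S := (hgood z₁ hp.1.1 _ (hsub hg1.1)).1
    have h1 : ContinuousAt (fun p : Z × E => f p.1 p.2) (z₁, g z₁ v₁) :=
      hf.continuousOn.continuousAt (hf.isOpen.mem_nhds hS1)
    have h2 : ContinuousAt (fun p : Z × F => f p.1 (g z₁ v₁)) (z₁, v₁) :=
      ContinuousAt.comp (g := fun p : Z × E => f p.1 p.2)
        (f := fun p : Z × F => ((p.1, g z₁ v₁) : Z × E)) (x := (z₁, v₁)) h1 (by fun_prop)
    have h3 : ContinuousAt (fun p : Z × F => 2 * m * ‖p.2 - f p.1 (g z₁ v₁)‖) (z₁, v₁) :=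
      continuousAt_const.mul ((continuousAt_snd.sub h2).norm)
    have h4 : Tendsto (fun p : Z × F => 2 * m * ‖p.2 - f p.1 (g z₁ v₁)‖) (𝓝 (z₁, v₁)) (𝓝 0) := by
      have h5 := h3.tendsto
      have h6 : f z₁ (g z₁ v₁) = v₁ := hg1.2
      simpa [h6] using h5
    refine tendsto_iff_norm_sub_tendsto_zero.2 ?_
    refine squeeze_zero' (Eventually.of_forall fun p => norm_nonneg _) ?_ h4
    filter_upwards [hTo.mem_nhds hp] with p hpT
    have h7 := hg p hpT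
    have h8 := hanti p.1 hpT.1.1 _ (hsub h7.1) _ (hsub hg1.1)
    rw [h7.2] at h8
    exact h8
  have hinv : ∀ p ∈ T, (_root_.fderiv ℝ (f p.1) (g p.1 p.2)).IsInvertible := fun p hp =>
    (hgood p.1 hp.1.1 _ (hsub (hg p hp).1)).2.1
  have hgS : ∀ p ∈ T, (p.1, g p.1 p.2) ∈ S := fun p hp =>
    (hgood p.1 hp.1.1 _ (hsub (hg p hp).1)).1
  have hgd : ∀ p ∈ T, HasFDerivAt (g p.1) (_root_.fderiv ℝ (f p.1) (g p.1 p.2)).inverse p.2 := by
    intro p hp
    obtain ⟨e, he⟩ := hinv p hp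
    have h1 : HasFDerivAt (f p.1) (e : E →L[ℝ] F) (g p.1 p.2) := by
      rw [he]
      exact hf.hasFDerivAt (p := (p.1, g p.1 p.2)) (hgS p hp)
    have h2 : ContinuousAt (g p.1) p.2 := by
      have h3 : ContinuousAt (fun p : Z × F => g p.1 p.2) (p.1, p.2) :=
        hgc.continuousAt (hTo.mem_nhds hp)
      exact h3.comp (f := fun v : F => ((p.1, v) : Z × F)) (by fun_prop)
    rw [← he, ContinuousLinearMap.inverse_equiv]
    refine HasFDerivAt.of_local_left_inverse h2 h1 ?_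
    have h4 : ∀ᶠ v in 𝓝 p.2, (p.1, v) ∈ T := (isOpen_slice hTo p.1).mem_nhds hp
    filter_upwards [h4] with v hv using (hg (p.1, v) hv).2
  have hjc : ∀ n, JCn n g T := by
    intro n
    induction n with
    | zero => exact JCn_zero.2 ⟨hTo, hgc⟩
    | succ n ih =>
      refine JCn.of_hasFDerivAt (f1 := fun z v => (_root_.fderiv ℝ (f z) (g z v)).inverse)
        hgc hgd ?_
      refine JCn.inverse ?_ hinv
      exact ((hfd.jcn n).comp ih).mono hTo fun p hp => ⟨hp, hgS p hp⟩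
  have hz0 : z₀ ∈ N := ⟨hzN1, hzN2⟩
  have hT0 : (z₀, f z₀ u₀) ∈ T := ⟨hz0, mem_ball_self hδ0⟩
  have hlinv : ∀ z ∈ N, ∀ u ∈ ball u₀ r, f z u ∈ ball (f z₀ u₀) δ → g z (f z u) = u := by
    intro z hz u hu hfu
    have h1 := hg (z, f z u) ⟨hz, hfu⟩
    have h2 := hanti z hz.1 _ (hsub h1.1) u (hsub (ball_subset_closedBall hu))
    have h3 : f z (g z (f z u)) = f z u := h1.2
    have h4 : ‖g z (f z u) - u‖ ≤ 2 * m * ‖f z (g z (f z u)) - f z u‖ := h2
    rw [h3, sub_self, norm_zero, mul_zero] at h4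
    exact sub_eq_zero.1 (norm_le_zero_iff.1 h4)
  refine ⟨T, g, JC.of_jcn hjc, hT0, hlinv z₀ hz0 u₀ (mem_ball_self hr0) (mem_ball_self hδ0),
    fun p hp => ⟨hgS p hp, (hg p hp).2⟩, fun p hp => ⟨hinv p hp, hgd p hp⟩,
    {p | p ∈ (N ×ˢ ball u₀ r) ∧ f p.1 p.2 ∈ ball (f z₀ u₀) δ}, ?_,
    ⟨⟨hz0, mem_ball_self hr0⟩, mem_ball_self hδ0⟩, ?_⟩
  · have h1 : ContinuousOn (fun p : Z × E => f p.1 p.2) (N ×ˢ ball u₀ r) :=
      hf.continuousOn.mono fun p hp => (hgood p.1 hp.1.1 _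
        (hsub (ball_subset_closedBall hp.2))).1
    exact h1.isOpen_inter_preimage (hNo.prod isOpen_ball) isOpen_ball
  · rintro p ⟨hp1, hp2⟩
    exact ⟨⟨hp1.1, hp2⟩, hlinv p.1 hp1.1 p.2 hp1.2 hp2⟩

/-- **the implicit function theorem with parameters**: `h z (x, φ z x) = h z₀ (x₀, y₀)` -/
theorem JC.implicit [CompleteSpace E] [CompleteSpace F] {h : Z → E × F → G}
    {S : Set (Z × (E × F))} (hh : JC h S)
    {z₀ : Z} {x₀ : E} {y₀ : F} (h0 : (z₀, (x₀, y₀)) ∈ S)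
    (hinv : (_root_.fderiv ℝ (fun y => h z₀ (x₀, y)) y₀).IsInvertible) :
    ∃ (T : Set (Z × E)) (φ : Z → E → F), JC φ T ∧ (z₀, x₀) ∈ T ∧ φ z₀ x₀ = y₀ ∧
      (∀ p ∈ T, (p.1, (p.2, φ p.1 p.2)) ∈ S ∧ h p.1 (p.2, φ p.1 p.2) = h z₀ (x₀, y₀)) ∧
      ∃ O : Set (Z × (E × F)), IsOpen O ∧ (z₀, (x₀, y₀)) ∈ O ∧ ∀ p ∈ O,
        h p.1 p.2 = h z₀ (x₀, y₀) → (p.1, p.2.1) ∈ T ∧ φ p.1 p.2.1 = p.2.2 := by
  obtain ⟨B, hB⟩ := hinv
  have hf : JC (fun z (q : E × F) => (q.1, h z q)) S :=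
    ((JC.id hh.isOpen).fst).prodMk hh
  set L : E × F →L[ℝ] G := _root_.fderiv ℝ (h z₀) (x₀, y₀) with hL
  have hLd : HasFDerivAt (h z₀) L (x₀, y₀) := hh.hasFDerivAt (p := (z₀, (x₀, y₀))) h0
  have hBL : (B : F →L[ℝ] G) = L.comp (ContinuousLinearMap.inr ℝ E F) := by
    rw [hB]
    have h1 : HasFDerivAt (fun y => h z₀ (x₀, y)) (L.comp (ContinuousLinearMap.inr ℝ E F)) y₀ :=
      hLd.comp y₀ (hasFDerivAt_prodMk_right x₀ y₀)
    exact h1.fderiv
  have hBLa : ∀ y, L (0, y) = B y := fun y => by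
    have := congrArg (fun A : F →L[ℝ] G => A y) hBL
    simpa using this.symm
  have hfd : HasFDerivAt (fun q : E × F => (q.1, h z₀ q))
      ((ContinuousLinearMap.fst ℝ E F).prod L) (x₀, y₀) := hasFDerivAt_fst.prodMk hLd
  have hinv' : (_root_.fderiv ℝ (fun q : E × F => (q.1, h z₀ q)) (x₀, y₀)).IsInvertible := by
    rw [hfd.fderiv]
    have hsplit : ∀ x y, L (x, y) = L (x, 0) + B y := fun x y => by
      rw [← hBLa, ← map_add]; simp
    let e : (E × F) ≃L[ℝ] (E × G) := ContinuousLinearEquiv.equivOfInverse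
      ((ContinuousLinearMap.fst ℝ E F).prod L)
      ((ContinuousLinearMap.fst ℝ E G).prod ((B.symm : G →L[ℝ] F).comp
        (ContinuousLinearMap.snd ℝ E G - (L.comp (ContinuousLinearMap.inl ℝ E F)).comp
          (ContinuousLinearMap.fst ℝ E G))))
      (fun q => by
        obtain ⟨x, y⟩ := q
        have h1 : B.symm (L (x, y)) - B.symm (L (x, 0)) = y := by
          rw [← map_sub, hsplit, add_sub_cancel_left, B.symm_apply_apply]
        simp [h1])
      (fun q => by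
        obtain ⟨x, y⟩ := q
        have h1 := hsplit x (B.symm (y - L (x, 0)))
        simp only [ContinuousLinearMap.prod_apply, ContinuousLinearMap.coe_fst',
          ContinuousLinearMap.comp_apply, _root_.sub_apply,
          ContinuousLinearMap.coe_snd', ContinuousLinearMap.inl_apply,
          ContinuousLinearEquiv.coe_coe, Prod.mk.injEq, true_and]
        rw [h1]
        simp)
    exact ⟨e, rfl⟩
  obtain ⟨T, g, hg, hT0, hg0, hgT, -, O, hO, hO0, hOg⟩ := hf.inverse_local h0 hinv'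
  set w₀ := h z₀ (x₀, y₀) with hw0
  have hι : JC (fun (_ : Z) (x : E) => (x, w₀)) univ :=
    (JC.id isOpen_univ).prodMk (JC.const isOpen_univ w₀)
  have hφ := (hg.comp hι).snd
  refine ⟨_, _, hφ, ⟨mem_univ _, hT0⟩, ?_, ?_, O, hO, hO0, ?_⟩
  · exact congrArg Prod.snd hg0
  · rintro ⟨z, x⟩ ⟨-, hp⟩
    obtain ⟨h1, h2⟩ := hgT (z, (x, w₀)) hp
    have h3 : (g z (x, w₀)).1 = x := congrArg Prod.fst h2
    have h4 : h z (g z (x, w₀)) = w₀ := congrArg Prod.snd h2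
    have h5 : g z (x, w₀) = (x, (g z (x, w₀)).2) := Prod.ext h3 rfl
    constructor
    · show (z, (x, (g z (x, w₀)).2)) ∈ S
      rw [← h5]; exact h1
    · show h z (x, (g z (x, w₀)).2) = w₀
      rw [← h5]; exact h4
  · rintro ⟨z, ⟨x, y⟩⟩ hp hw
    obtain ⟨h1, h2⟩ := hOg _ hp
    have hw' : h z (x, y) = w₀ := hw
    have e1 : ((z, ((x, h z (x, y)) : E × G)) : Z × (E × G)) = (z, (x, w₀)) := by rw [hw']
    have e2 : g z (x, h z (x, y)) = (x, y) := h2
    rw [hw'] at e2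
    refine ⟨⟨mem_univ _, ?_⟩, ?_⟩
    · show (z, ((x, w₀) : E × G)) ∈ T
      rw [← e1]; exact h1
    · show (g z (x, w₀)).2 = y
      rw [e2]

end Vale.Agent.P207.N3
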