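import Vale.Agent.P207.N3.H862.Inv

/-!
# P207, line N3: superposition operators and the primitive on spaces of continuous functions
-/

set_option linter.unusedSectionVars false

open Set Filter Topology Metric
open scoped ContDiff

noncomputable section

namespace Vale.Agent.P207.N3

universe v w

variable {Z : Type v} [TopologicalSpace Z] {E F G H : Type}
  [NormedAddCommGroup E] [NormedSpace ℝ E] [NormedAddCommGroup F] [NormedSpace ℝ F]
  [NormedAddCommGroup G] [NormedSpace ℝ G] [NormedAddCommGroup H] [NormedSpace ℝ H]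

section nem

variable {K : Type} [TopologicalSpace K] [CompactSpace K]

/-- the domain of the superposition operator -/
def ndom (S : Set ((Z × K) × E)) : Set (Z × C(K, E)) := {p | ∀ s, ((p.1, s), p.2 s) ∈ S}

open Classical in
/-- the superposition operator `c ↦ (s ↦ Y (z, s) (c s))` -/
def supC (Y : Z × K → E → F) (z : Z) (c : C(K, E)) : C(K, F) :=
  if h : Continuous fun s => Y (z, s) (c s) then ⟨fun s => Y (z, s) (c s), h⟩ else 0

theorem nem_apply {Y : Z × K → E → F} {S : Set ((Z × K) × E)}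
    (hY : ContinuousOn (fun p : (Z × K) × E => Y p.1 p.2) S) {z : Z} {c : C(K, E)}
    (hc : (z, c) ∈ ndom S) (s : K) : supC Y z c s = Y (z, s) (c s) := by
  have h : Continuous fun s => Y (z, s) (c s) := by
    have h1 : Continuous fun s : K => (((z, s), c s) : (Z × K) × E) := by fun_prop
    exact hY.comp_continuous h1 fun s => hc s
  rw [supC, dif_pos h]
  rfl

theorem ndom_ev {S : Set ((Z × K) × E)} {p : Z × C(K, E)} (hp : p ∈ ndom S)
    {P : (Z × K) × E → (Z × C(K, E)) → K → Prop} (hP : ∀ s : K,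
      ∀ᶠ q : ((Z × K) × E) × (Z × C(K, E)) × K in 𝓝 (((p.1, s), p.2 s), (p, s)), P q.1 q.2.1 q.2.2) :
    ∀ᶠ q : Z × C(K, E) in 𝓝 p, ∀ s, P ((q.1, s), q.2 s) q s := by
  have h1 := (isCompact_univ (X := K)).eventually_forall_of_forall_eventually (x₀ := p)
    (P := fun q s => P ((q.1, s), q.2 s) q s) fun s _ => by
      have h2 : Continuous fun q : (Z × C(K, E)) × K =>
          ((((q.1.1, q.2), q.1.2 q.2), q) : ((Z × K) × E) × (Z × C(K, E)) × K) := by fun_prop
      exact (h2.tendsto (p, s)).eventually (hP s)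
  exact h1.mono fun q hq s => hq s (mem_univ s)

theorem isOpen_ndom {S : Set ((Z × K) × E)} (hS : IsOpen S) : IsOpen (ndom S) := by
  refine isOpen_iff_mem_nhds.2 fun p hp => ?_
  refine ndom_ev hp (P := fun a _ _ => a ∈ S) fun s => ?_
  exact continuous_fst.continuousAt.eventually (hS.mem_nhds (hp s))

theorem nem_cont {Y : Z × K → E → F} {S : Set ((Z × K) × E)} (hS : IsOpen S)
    (hY : ContinuousOn (fun p : (Z × K) × E => Y p.1 p.2) S) :
    ContinuousOn (fun p : Z × C(K, E) => supC Y p.1 p.2) (ndom S) := by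
  intro p hp
  refine ContinuousAt.continuousWithinAt ?_
  refine Metric.tendsto_nhds.2 fun ε hε => ?_
  have h1 : ∀ᶠ q : Z × C(K, E) in 𝓝 p, ∀ s, ((q.1, s), q.2 s) ∈ S ∧
      dist (Y (q.1, s) (q.2 s)) (Y (p.1, s) (p.2 s)) < ε := by
    refine ndom_ev hp (P := fun a _ s => a ∈ S ∧ dist (Y a.1 a.2) (Y (p.1, s) (p.2 s)) < ε)
      fun s => ?_
    have hYs : ContinuousAt (fun a : (Z × K) × E => Y a.1 a.2) ((p.1, s), p.2 s) :=
      hY.continuousAt (hS.mem_nhds (hp s))
    refine Eventually.and (continuous_fst.continuousAt.eventually (hS.mem_nhds (hp s))) ?_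
    have h2 : ContinuousAt (fun q : ((Z × K) × E) × (Z × C(K, E)) × K => Y q.1.1 q.1.2)
        (((p.1, s), p.2 s), (p, s)) :=
      ContinuousAt.comp (g := fun a : (Z × K) × E => Y a.1 a.2)
        (f := fun q : ((Z × K) × E) × (Z × C(K, E)) × K => q.1) (x := (((p.1, s), p.2 s), (p, s)))
        hYs continuousAt_fst
    have h3 : ContinuousAt (fun s' : K => Y (p.1, s') (p.2 s')) s := by
      have h4 : Continuous fun s : K => (((p.1, s), p.2 s) : (Z × K) × E) := by fun_prop
      exact (hY.comp_continuous h4 fun s => hp s).continuousAt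
    have h5 : ContinuousAt (fun q : ((Z × K) × E) × (Z × C(K, E)) × K =>
        Y (p.1, q.2.2) (p.2 q.2.2)) (((p.1, s), p.2 s), (p, s)) :=
      ContinuousAt.comp (g := fun s' : K => Y (p.1, s') (p.2 s'))
        (f := fun q : ((Z × K) × E) × (Z × C(K, E)) × K => q.2.2)
        (x := (((p.1, s), p.2 s), (p, s))) h3 (by fun_prop)
    have h6 := h2.dist h5
    refine h6.eventually (gt_mem_nhds ?_)
    show dist (Y (p.1, s) (p.2 s)) (Y (p.1, s) (p.2 s)) < ε
    rwa [dist_self]
  filter_upwards [h1] with q hq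
  rw [ContinuousMap.dist_lt_iff hε]
  intro s
  rw [nem_apply hY (fun s => (hq s).1), nem_apply hY hp]
  exact (hq s).2

/-- pointwise application of operators -/
def mulC (K E F : Type) [TopologicalSpace K] [CompactSpace K] [NormedAddCommGroup E]
    [NormedSpace ℝ E] [NormedAddCommGroup F] [NormedSpace ℝ F] :
    C(K, E →L[ℝ] F) →L[ℝ] C(K, E) →L[ℝ] C(K, F) :=
  LinearMap.mkContinuous₂ (LinearMap.mk₂ ℝ
    (fun (A : C(K, E →L[ℝ] F)) (h : C(K, E)) => (⟨fun s => A s (h s), by fun_prop⟩ : C(K, F)))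
    (fun A B h => by ext s; simp) (fun r A h => by ext s; simp) (fun A h k => by ext s; simp)
    (fun r A h => by ext s; simp)) 1 fun A h => by
      rw [one_mul]
      refine (ContinuousMap.norm_le _ (by positivity)).2 fun s => ?_
      have h1 := (A s).le_opNorm (h s)
      have h2 := A.norm_coe_le_norm s
      have h3 := h.norm_coe_le_norm s
      exact h1.trans (mul_le_mul h2 h3 (norm_nonneg _) (norm_nonneg A))

@[simp] theorem mulC_apply (A : C(K, E →L[ℝ] F)) (h : C(K, E)) (s : K) :
    mulC K E F A h s = A s (h s) := rfl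

theorem norm_mulC_le (A : C(K, E →L[ℝ] F)) : ‖mulC K E F A‖ ≤ ‖A‖ := by
  refine ContinuousLinearMap.opNorm_le_bound _ (norm_nonneg A) fun h => ?_
  refine (ContinuousMap.norm_le _ (by positivity)).2 fun s => ?_
  have h1 := (A s).le_opNorm (h s)
  have h2 := A.norm_coe_le_norm s
  have h3 := h.norm_coe_le_norm s
  exact h1.trans (mul_le_mul h2 h3 (norm_nonneg _) (norm_nonneg A))

theorem nem_deriv {Y : Z × K → E → F} {S : Set ((Z × K) × E)} (h : JCn 1 Y S) {z : Z}
    {c : C(K, E)} (hc : (z, c) ∈ ndom S) :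
    HasFDerivAt (supC Y z) (mulC K E F (supC (fun w => fderiv ℝ (Y w)) z c)) c := by
  obtain ⟨h1, h2, h3⟩ := (JCn_succ (n := 0)).1 h
  have hS := h.isOpen
  have h3c : ContinuousOn (fun p : (Z × K) × E => fderiv ℝ (Y p.1) p.2) S := h3.continuousOn
  refine HasFDerivAt.of_isLittleO ?_
  refine Asymptotics.isLittleO_iff.2 fun ε hε => ?_
  -- uniformity
  have hu : ∀ᶠ v in 𝓝 (0 : E), ∀ s ∈ (univ : Set K), ((z, s), c s + v) ∈ S ∧
      ‖fderiv ℝ (Y (z, s)) (c s + v) - fderiv ℝ (Y (z, s)) (c s)‖ < ε := by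
    refine (isCompact_univ (X := K)).eventually_forall_of_forall_eventually (x₀ := (0 : E))
      (P := fun v s => ((z, s), c s + v) ∈ S ∧
        ‖fderiv ℝ (Y (z, s)) (c s + v) - fderiv ℝ (Y (z, s)) (c s)‖ < ε) fun s _ => ?_
    have hq : Continuous fun q : E × K => (((z, q.2), c q.2 + q.1) : (Z × K) × E) := by fun_prop
    have hq0 : ((z, s), c s + (0 : E)) ∈ S := by rw [add_zero]; exact hc s
    refine Eventually.and (hq.continuousAt.eventually (hS.mem_nhds hq0)) ?_
    have h4 : ContinuousAt (fun q : E × K => fderiv ℝ (Y (z, q.2)) (c q.2 + q.1)) (0, s) :=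
      ContinuousAt.comp (g := fun a : (Z × K) × E => fderiv ℝ (Y a.1) a.2)
        (f := fun q : E × K => (((z, q.2), c q.2 + q.1) : (Z × K) × E)) (x := (0, s))
        (h3c.continuousAt (hS.mem_nhds hq0)) hq.continuousAt
    have h5 : ContinuousAt (fun q : E × K => fderiv ℝ (Y (z, q.2)) (c q.2)) (0, s) := by
      have h6 : Continuous fun s : K => (((z, s), c s) : (Z × K) × E) := by fun_prop
      exact ((h3c.comp_continuous h6 fun s => hc s).comp continuous_snd).continuousAt
    refine (h4.sub h5).norm.eventually (gt_mem_nhds ?_)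
    show ‖fderiv ℝ (Y (z, s)) (c s + 0) - fderiv ℝ (Y (z, s)) (c s)‖ < ε
    rwa [add_zero, sub_self, norm_zero]
  obtain ⟨δ, hδ, hball⟩ := Metric.eventually_nhds_iff_ball.1 hu
  have hloc : ∀ s, ∀ x ∈ ball (c s) δ, ((z, s), x) ∈ S ∧
      ‖fderiv ℝ (Y (z, s)) x - fderiv ℝ (Y (z, s)) (c s)‖ < ε := by
    intro s x hx
    have h4 : x - c s ∈ ball (0 : E) δ := by
      rw [mem_ball, dist_eq_norm] at hx
      rwa [mem_ball_zero_iff]
    have h5 := hball _ h4 s (mem_univ s)
    rwa [add_sub_cancel] at h5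
  filter_upwards [ball_mem_nhds c hδ] with c' hc'
  have hc's : ∀ s, c' s ∈ ball (c s) δ := fun s => by
    rw [mem_ball] at hc' ⊢
    exact (ContinuousMap.dist_apply_le_dist s).trans_lt hc'
  have hcn : (z, c') ∈ ndom S := fun s => (hloc s _ (hc's s)).1
  refine (ContinuousMap.norm_le _ (by positivity)).2 fun s => ?_
  have key := (convex_ball (c s) δ).norm_image_sub_le_of_norm_hasFDerivWithin_le'
    (f := Y (z, s)) (f' := fderiv ℝ (Y (z, s))) (φ := fderiv ℝ (Y (z, s)) (c s)) (C := ε)
    (fun x hx => (h1 ((z, s), x) (hloc s x hx).1).hasFDerivAt.hasFDerivWithinAt)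
    (fun x hx => (hloc s x hx).2.le) (mem_ball_self hδ) (hc's s)
  rw [ContinuousMap.sub_apply, ContinuousMap.sub_apply, nem_apply h2 hcn, nem_apply h2 hc,
    mulC_apply, nem_apply h3c hc, ContinuousMap.sub_apply]
  refine key.trans (mul_le_mul_of_nonneg_left ?_ hε.le)
  have := (c' - c).norm_coe_le_norm s
  rwa [ContinuousMap.sub_apply] at this

/-- **the superposition operator has jointly continuous derivatives** -/
theorem JCn.nem {n : ℕ} {Y : Z × K → E → F} {S : Set ((Z × K) × E)} (h : JCn n Y S) :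
    JCn n (supC Y) (ndom S) := by
  induction n generalizing F with
  | zero => exact JCn_zero.2 ⟨isOpen_ndom h.isOpen, nem_cont h.isOpen h.continuousOn⟩
  | succ n ih =>
    refine JCn.of_hasFDerivAt (f1 := fun z c => mulC K E F
      (supC (fun w => _root_.fderiv ℝ (Y w)) z c))
      (nem_cont h.isOpen h.continuousOn)
      (fun p hp => nem_deriv (h.of_le (by omega)) hp) ?_
    exact (ih (JCn_succ.1 h).2.2).clm (mulC K E F)

theorem JC.nem {Y : Z × K → E → F} {S : Set ((Z × K) × E)} (h : JC Y S) :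
    JC (supC Y) (ndom S) := JC.of_jcn fun n => (h.jcn n).nem

end nem

/-! ### the primitive -/

/-- the unit interval -/
abbrev UI : Type := Icc (0 : ℝ) 1

/-- the extension of a function on the unit interval to the real line -/
def ext (c : C(UI, E)) : C(ℝ, E) := ⟨fun t => c (projIcc 0 1 zero_le_one t),
  c.continuous.comp continuous_projIcc⟩

theorem ext_apply (c : C(UI, E)) (s : UI) : ext c s = c s := by
  show c (projIcc 0 1 zero_le_one (s : ℝ)) = c s
  rw [projIcc_val]

theorem ext_of_mem (c : C(UI, E)) {t : ℝ} (ht : t ∈ Icc (0 : ℝ) 1) : ext c t = c ⟨t, ht⟩ :=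
  ext_apply c ⟨t, ht⟩

theorem norm_ext_le (c : C(UI, E)) (t : ℝ) : ‖ext c t‖ ≤ ‖c‖ := c.norm_coe_le_norm _

/-- the primitive `c ↦ (s ↦ ∫ t in 0..s, c t)` -/
def primC (E : Type) [NormedAddCommGroup E] [NormedSpace ℝ E] : C(UI, E) →L[ℝ] C(UI, E) :=
  LinearMap.mkContinuous
    { toFun := fun c => ⟨fun s => ∫ t in (0 : ℝ)..s, ext c t,
        (intervalIntegral.continuous_primitive (fun a b => (ext c).continuous.intervalIntegrable a b)
          0).comp continuous_subtype_val⟩
      map_add' := fun c d => by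
        ext s
        have h1 : ∀ t, ext (c + d) t = ext c t + ext d t := fun t => rfl
        simp only [ContinuousMap.coe_mk, ContinuousMap.add_apply, h1]
        exact intervalIntegral.integral_add ((ext c).continuous.intervalIntegrable _ _)
          ((ext d).continuous.intervalIntegrable _ _)
      map_smul' := fun r c => by
        ext s
        have h1 : ∀ t, ext (r • c) t = r • ext c t := fun t => rfl
        simp only [ContinuousMap.coe_mk, ContinuousMap.smul_apply, h1, RingHom.id_apply]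
        exact intervalIntegral.integral_smul r _ } 1 fun c => by
      rw [one_mul]
      refine (ContinuousMap.norm_le _ (norm_nonneg _)).2 fun s => ?_
      have h1 : ‖∫ t in (0 : ℝ)..s, ext c t‖ ≤ ‖c‖ * |(s : ℝ) - 0| :=
        intervalIntegral.norm_integral_le_of_norm_le_const fun t _ => norm_ext_le c t
      have h2 : |(s : ℝ) - 0| ≤ 1 := by
        rw [sub_zero, abs_of_nonneg s.2.1]; exact s.2.2
      exact h1.trans (mul_le_of_le_one_right (norm_nonneg _) h2)

theorem primC_apply (c : C(UI, E)) (s : UI) : primC E c s = ∫ t in (0 : ℝ)..s, ext c t := rfl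

/-- iterates of a Volterra operator -/
theorem volterra_pow (B : C(UI, E →L[ℝ] E)) (n : ℕ) (h : C(UI, E)) (s : UI) :
    ‖(((primC E).comp (mulC UI E E B)) ^ n) h s‖ ≤ (‖B‖ * s) ^ n / n.factorial * ‖h‖ := by
  induction n generalizing s with
  | zero => simpa using h.norm_coe_le_norm s
  | succ n ih =>
    set T := (primC E).comp (mulC UI E E B) with hT
    have h1 : (T ^ (n + 1)) h = T ((T ^ n) h) := by rw [pow_succ']; rfl
    rw [h1]
    have h2 : T ((T ^ n) h) s = ∫ t in (0 : ℝ)..s, ext (mulC UI E E B ((T ^ n) h)) t := rfl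
    rw [h2]
    have h3 : ∀ t ∈ Icc (0 : ℝ) s, ‖ext (mulC UI E E B ((T ^ n) h)) t‖
        ≤ ‖B‖ * ((‖B‖ * t) ^ n / n.factorial * ‖h‖) := by
      intro t ht
      have ht1 : t ∈ Icc (0 : ℝ) 1 := ⟨ht.1, ht.2.trans s.2.2⟩
      rw [ext_of_mem _ ht1, mulC_apply]
      refine ((B _).le_opNorm _).trans ?_
      exact mul_le_mul (B.norm_coe_le_norm _) (ih ⟨t, ht1⟩) (norm_nonneg _) (norm_nonneg B)
    have h4 : ‖∫ t in (0 : ℝ)..s, ext (mulC UI E E B ((T ^ n) h)) t‖
        ≤ ∫ t in (0 : ℝ)..s, ‖B‖ * ((‖B‖ * t) ^ n / n.factorial * ‖h‖) := by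
      refine intervalIntegral.norm_integral_le_of_norm_le s.2.1 ?_ ?_
      · exact Eventually.of_forall fun t ht => h3 t ⟨ht.1.le, ht.2⟩
      · exact Continuous.intervalIntegrable (by fun_prop) _ _
    refine h4.trans (le_of_eq ?_)
    have h5 : (fun t : ℝ => ‖B‖ * ((‖B‖ * t) ^ n / n.factorial * ‖h‖))
        = fun t => (‖B‖ ^ (n + 1) / n.factorial * ‖h‖) * t ^ n := by
      funext t; rw [mul_pow, pow_succ]; ring
    rw [h5, intervalIntegral.integral_const_mul, integral_pow]
    rw [Nat.factorial_succ, mul_pow]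
    push_cast
    have h6 : ((n : ℝ) + 1) ≠ 0 := by positivity
    have h7 : (n.factorial : ℝ) ≠ 0 := by positivity
    field_simp
    ring

/-- **Volterra operators**: `id - J M_B` is invertible -/
theorem volterra_inv [CompleteSpace E] (B : C(UI, E →L[ℝ] E)) :
    (ContinuousLinearMap.id ℝ C(UI, E) - (primC E).comp (mulC UI E E B)).IsInvertible := by
  set T := (primC E).comp (mulC UI E E B) with hT
  have h1 : ∀ n : ℕ, ‖T ^ n‖ ≤ ‖B‖ ^ n / n.factorial := by
    intro n
    refine ContinuousLinearMap.opNorm_le_bound _ (by positivity) fun h => ?_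
    refine (ContinuousMap.norm_le _ (by positivity)).2 fun s => ?_
    refine (volterra_pow B n h s).trans (mul_le_mul_of_nonneg_right ?_ (norm_nonneg _))
    refine div_le_div_of_nonneg_right ?_ (by positivity)
    refine pow_le_pow_left₀ (mul_nonneg (norm_nonneg B) s.2.1) ?_ n
    exact mul_le_of_le_one_right (norm_nonneg B) s.2.2
  have h2 := FloorSemiring.tendsto_pow_div_factorial_atTop ‖B‖
  obtain ⟨n, hn⟩ := (h2.eventually (gt_mem_nhds (show (0 : ℝ) < 1 from one_pos))).exists
  have h3 : IsUnit (1 - T ^ n) :=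
    isUnit_one_sub_of_norm_lt_one (R := C(UI, E) →L[ℝ] C(UI, E)) ((h1 n).trans_lt hn)
  rw [← mul_neg_geom_sum] at h3
  have hcomm : Commute (1 - T) (∑ i ∈ Finset.range n, T ^ i) := by
    refine Commute.sum_right _ _ _ fun i _ => ?_
    exact ((Commute.one_left _).sub_left ((Commute.refl T).pow_right i))
  obtain ⟨u, hu⟩ := (hcomm.isUnit_mul_iff.1 h3).1
  refine ⟨ContinuousLinearEquiv.unitsEquiv ℝ _ u, ?_⟩
  ext1 h
  show (u : C(UI, E) →L[ℝ] C(UI, E)) h = _
  rw [hu]
  rfl

end Vale.Agent.P207.N3
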