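import Vale.Agent.P207.N3.H862.NemC

/-!
# P207, line N3: ordinary differential equations with jointly continuous derivatives
-/

set_option linter.unusedSectionVars false

open Set Filter Topology Metric
open scoped ContDiff

noncomputable section

namespace Vale.Agent.P207.N3

universe v w

variable {Z : Type v} [TopologicalSpace Z] {E F G H : Type}
  [NormedAddCommGroup E] [NormedSpace ℝ E] [NormedAddCommGroup F] [NormedSpace ℝ F]
  [NormedAddCommGroup G] [NormedSpace ℝ G] [NormedAddCommGroup H] [NormedSpace ℝ H]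

/-- solutions on the unit interval -/
def IsSol (Y : UI → E → E) (c : C(UI, E)) : Prop :=
  ∀ s : UI, HasDerivWithinAt (ext c) (Y s (c s)) (Icc 0 1) s

theorem integral_of_deriv [CompleteSpace E] {c y : C(UI, E)}
    (h : ∀ s : UI, HasDerivWithinAt (ext c) (y s) (Icc 0 1) s) (s : UI) :
    c s = c 0 + primC E y s := by
  have h1 := intervalIntegral.integral_eq_sub_of_hasDeriv_right (f := ext c) (f' := ext y)
    (a := 0) (b := s) (ext c).continuous.continuousOn (fun x hx => ?_)
    ((ext y).continuous.intervalIntegrable _ _)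
  · rw [primC_apply, h1, ext_apply]
    have h2 : ext c 0 = c 0 := ext_apply c 0
    rw [h2]
    abel
  · rw [min_eq_left s.2.1, max_eq_right s.2.1] at hx
    have hx1 : x ∈ Icc (0 : ℝ) 1 := ⟨hx.1.le, hx.2.le.trans s.2.2⟩
    have h3 := h ⟨x, hx1⟩
    rw [ext_of_mem y hx1]
    have h4 : Icc (0 : ℝ) 1 ∈ 𝓝 x := Icc_mem_nhds hx.1 (hx.2.trans_le s.2.2)
    exact (h3.hasDerivAt h4).hasDerivWithinAt

theorem deriv_of_integral [CompleteSpace E] {c y : C(UI, E)} {u : E}
    (h : ∀ s, c s = u + primC E y s) (s : UI) :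
    HasDerivWithinAt (ext c) (y s) (Icc 0 1) s := by
  have h1 : HasDerivAt (fun t : ℝ => ∫ τ in (0 : ℝ)..t, ext y τ) (ext y s) s :=
    ((ext y).continuous.integral_hasStrictDerivAt 0 (s : ℝ)).hasDerivAt
  rw [ext_apply] at h1
  have h2 : HasDerivWithinAt (fun t : ℝ => u + ∫ τ in (0 : ℝ)..t, ext y τ) (y s) (Icc 0 1) s :=
    (h1.const_add u).hasDerivWithinAt
  refine h2.congr (fun t ht => ?_) ?_
  · rw [ext_of_mem c ht, h ⟨t, ht⟩, primC_apply]
  · rw [ext_apply, h s, primC_apply]

theorem primC_zero (y : C(UI, E)) : primC E y 0 = 0 := by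
  rw [primC_apply]
  have : ((0 : UI) : ℝ) = 0 := rfl
  rw [this, intervalIntegral.integral_same]

/-- constant functions -/
def constC (E : Type) [NormedAddCommGroup E] [NormedSpace ℝ E] : E →L[ℝ] C(UI, E) :=
  LinearMap.mkContinuous
    { toFun := fun u => ContinuousMap.const UI u
      map_add' := fun u v => rfl
      map_smul' := fun r u => rfl } 1 fun u => by
      rw [one_mul]
      exact (ContinuousMap.norm_le _ (norm_nonneg u)).2 fun s => le_rfl

@[simp] theorem constC_apply (u : E) (s : UI) : constC E u s = u := rfl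

theorem sol_iff [CompleteSpace E] {Y : Z × UI → E → E} {S : Set ((Z × UI) × E)}
    (hY : ContinuousOn (fun p : (Z × UI) × E => Y p.1 p.2) S) {z : Z} {c : C(UI, E)}
    (hc : (z, c) ∈ ndom S) (u : E) : c - primC E (supC Y z c) = constC E u ↔
      c 0 = u ∧ IsSol (fun s => Y (z, s)) c := by
  constructor
  · intro h
    have h1 : ∀ s, c s = u + primC E (supC Y z c) s := fun s => by
      have := congrArg (fun d : C(UI, E) => d s) h
      simp only [ContinuousMap.sub_apply, constC_apply] at this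
      rw [← this]; abel
    refine ⟨?_, fun s => ?_⟩
    · rw [h1 0, primC_zero, add_zero]
    · have h2 := deriv_of_integral h1 s
      rwa [nem_apply hY hc] at h2
  · rintro ⟨h0, h1⟩
    have h2 := integral_of_deriv (c := c) (y := supC Y z c) fun s => by
      rw [nem_apply hY hc]; exact h1 s
    ext s
    rw [ContinuousMap.sub_apply, constC_apply, h2 s, h0]
    abel

/-- **differential equations**: solutions on the unit interval near a given one, jointly
continuous derivatives with respect to the initial value -/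
theorem JC.ode [CompleteSpace E] {Y : Z × UI → E → E} {S : Set ((Z × UI) × E)} (hY : JC Y S)
    {z₀ : Z} {c₀ : C(UI, E)} (hc : (z₀, c₀) ∈ ndom S) (hsol : IsSol (fun s => Y (z₀, s)) c₀) :
    ∃ (N : Set (Z × E)) (w : Z → E → C(UI, E)), JC w N ∧ (z₀, c₀ 0) ∈ N ∧
      w z₀ (c₀ 0) = c₀ ∧ (∀ p ∈ N, (p.1, w p.1 p.2) ∈ ndom S ∧ w p.1 p.2 0 = p.2 ∧
        IsSol (fun s => Y (p.1, s)) (w p.1 p.2)) ∧
      ∀ p ∈ N, ∀ h : E, (_root_.fderiv ℝ (w p.1) p.2 h) 0 = h ∧
        IsSol (fun s => _root_.fderiv ℝ (Y (p.1, s)) (w p.1 p.2 s))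
          (_root_.fderiv ℝ (w p.1) p.2 h) := by
  set Ψ : Z → C(UI, E) → C(UI, E) := fun z c => c - primC E (supC Y z c) with hΨ
  have hJ0 : JC (fun z c => primC E (supC Y z c)) (ndom S) := JC.clm (primC E) hY.nem
  have hJ1 : JC (fun (_ : Z) (c : C(UI, E)) => c) (ndom S) := JC.id (isOpen_ndom hY.isOpen)
  have hJ : JC Ψ (ndom S) := hJ1.sub hJ0
  have hYc := hY.continuousOn
  have hΨd : ∀ {z c}, (z, c) ∈ ndom S → HasFDerivAt (Ψ z) (ContinuousLinearMap.id ℝ C(UI, E)
      - (primC E).comp (mulC UI E E (supC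
        (fun w => _root_.fderiv ℝ (Y w)) z c))) c := by
    intro z c hzc
    exact (hasFDerivAt_id c).sub ((primC E).hasFDerivAt.comp c (nem_deriv (hY.jcn 1) hzc))
  have hinv : (_root_.fderiv ℝ (Ψ z₀) c₀).IsInvertible := by
    rw [(hΨd hc).fderiv]
    exact volterra_inv _
  obtain ⟨T, g, hg, hT0, hg0, hgT, hgd, -⟩ := hJ.inverse_local hc hinv
  have hΨ0 : Ψ z₀ c₀ = constC E (c₀ 0) := (sol_iff hYc hc (c₀ 0)).2 ⟨rfl, hsol⟩
  rw [hΨ0] at hT0 hg0
  have hι : JC (fun (_ : Z) (u : E) => constC E u) univ :=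
    JC.of_contDiff (constC E).contDiff isOpen_univ
  have hw := hg.comp hι
  refine ⟨_, _, hw, ⟨mem_univ _, hT0⟩, hg0, ?_, ?_⟩
  · rintro ⟨z, u⟩ ⟨-, hp⟩
    obtain ⟨h1, h2⟩ := hgT (z, constC E u) hp
    exact ⟨h1, (sol_iff hYc h1 u).1 h2⟩
  · rintro ⟨z, u⟩ ⟨-, hp⟩ h
    obtain ⟨h1, h2⟩ := hgT (z, constC E u) hp
    obtain ⟨h3, h4⟩ := hgd (z, constC E u) hp
    have h5 : HasFDerivAt (fun u => g z (constC E u))
        ((_root_.fderiv ℝ (Ψ z) (g z (constC E u))).inverse.comp (constC E)) u :=
      HasFDerivAt.comp u h4 (constC E).hasFDerivAt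
    have h6 : _root_.fderiv ℝ (fun u => g z (constC E u)) u h
        = (_root_.fderiv ℝ (Ψ z) (g z (constC E u))).inverse (constC E h) := by
      rw [h5.fderiv]; rfl
    set k := _root_.fderiv ℝ (fun u => g z (constC E u)) u h with hk
    have h7 : _root_.fderiv ℝ (Ψ z) (g z (constC E u)) k = constC E h := by
      rw [h6]
      obtain ⟨e, he⟩ := h3
      have he' : (e : C(UI, E) →L[ℝ] C(UI, E)) = _root_.fderiv ℝ (Ψ z) (g z (constC E u)) := he
      rw [← he', ContinuousLinearMap.inverse_equiv]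
      simp
    rw [(hΨd h1).fderiv] at h7
    set B := supC (fun w => _root_.fderiv ℝ (Y w)) z (g z (constC E u)) with hB
    have h8 : ∀ s, k s = h + primC E (mulC UI E E B k) s := fun s => by
      have := congrArg (fun d : C(UI, E) => d s) h7
      have h9 : k s - primC E (mulC UI E E B k) s = h := this
      rw [← h9]; abel
    refine ⟨?_, fun s => ?_⟩
    · show k 0 = h
      rw [h8 0, primC_zero, add_zero]
    · have h10 := deriv_of_integral h8 s
      rw [mulC_apply, hB, nem_apply (Y := fun w => _root_.fderiv ℝ (Y w))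
        hY.fderiv.continuousOn h1] at h10
      exact h10

/-- **uniqueness** -/
theorem IsSol.unique {Y : UI → E → E} {S : Set (UI × E)} (hY : JCn 1 Y S) {a b : C(UI, E)}
    (haS : ∀ s, (s, a s) ∈ S) (ha : IsSol Y a) (hb : IsSol Y b) (h0 : a 0 = b 0) : a = b := by
  obtain ⟨h1, h2, h3⟩ := (JCn_succ (n := 0)).1 hY
  have h3c := h3.continuousOn
  have hS := hY.isOpen
  have key : Icc (0 : ℝ) 1 ⊆ {t | ext a t = ext b t} := by
    refine IsClosed.Icc_subset_of_forall_exists_gt ?_ ?_ ?_
    · exact (isClosed_eq (ext a).continuous (ext b).continuous).inter isClosed_Icc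
    · show ext a 0 = ext b 0
      have e1 : ext a 0 = a 0 := ext_apply a 0
      have e2 : ext b 0 = b 0 := ext_apply b 0
      rw [e1, e2, h0]
    · rintro x ⟨hx, hx01⟩ y hy
      have hx1 : x ∈ Icc (0 : ℝ) 1 := ⟨hx01.1, hx01.2.le⟩
      set s₀ : UI := ⟨x, hx1⟩ with hs0
      set v := a s₀ with hv
      have hva : ext a x = v := ext_of_mem a hx1
      have hvb : ext b x = v := by
        have : ext a x = ext b x := hx
        rw [← this, hva]
      -- local Lipschitz bound
      have hev : ∀ᶠ p : UI × E in 𝓝 (s₀, v), p ∈ S ∧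
          ‖fderiv ℝ (Y p.1) p.2‖ < ‖fderiv ℝ (Y s₀) v‖ + 1 := by
        have hS0 : ∀ᶠ p : UI × E in 𝓝 (s₀, v), p ∈ S := hS.mem_nhds (haS s₀)
        refine hS0.and ?_
        have hca : ContinuousAt (fun p : UI × E => ‖fderiv ℝ (Y p.1) p.2‖) (s₀, v) :=
          (h3c.continuousAt (hS.mem_nhds (haS s₀))).norm
        refine hca.eventually (gt_mem_nhds ?_)
        show ‖fderiv ℝ (Y s₀) v‖ < ‖fderiv ℝ (Y s₀) v‖ + 1
        linarith
      obtain ⟨r, hr, hball⟩ := Metric.eventually_nhds_iff_ball.1 hev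
      have hfa : ∀ᶠ t in 𝓝 x, ext a t ∈ ball v r :=
        (ext a).continuous.continuousAt.eventually (by rw [hva]; exact ball_mem_nhds _ hr)
      have hfb : ∀ᶠ t in 𝓝 x, ext b t ∈ ball v r :=
        (ext b).continuous.continuousAt.eventually (by rw [hvb]; exact ball_mem_nhds _ hr)
      obtain ⟨δ, hδ, hball2⟩ := Metric.eventually_nhds_iff_ball.1 (hfa.and hfb)
      set η : ℝ := min r δ / 2 with hη
      have hη0 : 0 < η := by positivity
      have hηr : η < r := by
        have := min_le_left r δ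
        rw [hη]; linarith [lt_min hr hδ]
      have hηδ : η < δ := by
        have := min_le_right r δ
        rw [hη]; linarith [lt_min hr hδ]
      set x' := min y (min 1 (x + η)) with hx'
      have hxx' : x < x' := lt_min hy (lt_min hx01.2 (by linarith))
      have hx'1 : x' ≤ 1 := (min_le_right _ _).trans (min_le_left _ _)
      have hx'η : x' ≤ x + η := (min_le_right _ _).trans (min_le_right _ _)
      have hlip : ∀ t ∈ Ico x x', LipschitzOnWith (‖fderiv ℝ (Y s₀) v‖₊ + 1)
          (Y (projIcc 0 1 zero_le_one t)) (ball v r) := by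
        intro t ht
        have ht1 : t ∈ Icc (0 : ℝ) 1 := ⟨hx01.1.trans ht.1, ht.2.le.trans hx'1⟩
        have hts : dist (projIcc 0 1 zero_le_one t) s₀ < r := by
          rw [projIcc_of_mem zero_le_one ht1, Subtype.dist_eq, Real.dist_eq]
          show |t - x| < r
          rw [abs_of_nonneg (by linarith [ht.1])]
          linarith [ht.2]
        have hmem : ∀ u ∈ ball v r, ((projIcc 0 1 zero_le_one t, u) : UI × E) ∈ ball (s₀, v) r := by
          intro u hu
          rw [← ball_prod_same]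
          exact ⟨hts, hu⟩
        refine Convex.lipschitzOnWith_of_nnnorm_fderiv_le (𝕜 := ℝ) (fun u hu => ?_)
          (fun u hu => ?_) (convex_ball v r)
        · exact h1 (projIcc 0 1 zero_le_one t, u) (hball _ (hmem u hu)).1
        · have h6 := (hball _ (hmem u hu)).2.le
          rw [← NNReal.coe_le_coe]
          push_cast
          exact h6
      have hder : ∀ {c : C(UI, E)}, IsSol Y c → ∀ t ∈ Ico x x',
          HasDerivWithinAt (ext c) (Y (projIcc 0 1 zero_le_one t) (ext c t)) (Ici t) t := by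
        intro c hcs t ht
        have ht1 : t ∈ Icc (0 : ℝ) 1 := ⟨hx01.1.trans ht.1, ht.2.le.trans hx'1⟩
        have h7 := hcs ⟨t, ht1⟩
        rw [projIcc_of_mem zero_le_one ht1, ext_of_mem c ht1]
        refine h7.mono_of_mem_nhdsWithin ?_
        have h8 : Icc t 1 ∈ 𝓝[≥] t := Icc_mem_nhdsGE (ht.2.trans_le hx'1)
        exact mem_of_superset h8 (Icc_subset_Icc_left ht1.1)
      have hin : ∀ t ∈ Ico x x', ext a t ∈ ball v r ∧ ext b t ∈ ball v r := by
        intro t ht
        refine hball2 t ?_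
        rw [mem_ball, Real.dist_eq, abs_of_nonneg (by linarith [ht.1])]
        linarith [ht.2]
      have hE := ODE_solution_unique_of_mem_Icc_right
        (v := fun t => Y (projIcc 0 1 zero_le_one t)) (s := fun _ => ball v r) hlip
        (ext a).continuous.continuousOn (hder ha) (fun t ht => (hin t ht).1)
        (ext b).continuous.continuousOn (hder hb) (fun t ht => (hin t ht).2) (hva.trans hvb.symm)
      exact ⟨x', hE ⟨hxx'.le, le_rfl⟩, hxx', min_le_left _ _⟩
  ext s
  have := key s.2
  rwa [mem_ofPred_eq, ext_apply, ext_apply] at this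

end Vale.Agent.P207.N3
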